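import Mathlib

/-!
# Ordered 2x2 patterns in binary matrices: basic notions

Rows are vectors `Fin n → Bool`.  `Pat H u v c₁ c₂` says that the rows `u` (top) and `v` (bottom)
show the pattern `H` on the columns `c₁`, `c₂`.
-/

open Finset

namespace Vale.Agent.Lib.P037

variable {n : ℕ}

/-- The 2x2 pattern `H` occurs on the rows `u` (top), `v` (bottom) at the columns `c₁`, `c₂`. -/
def Pat (H : Fin 2 → Fin 2 → Bool) (u v : Fin n → Bool) (c₁ c₂ : Fin n) : Prop :=
  u c₁ = H 0 0 ∧ u c₂ = H 0 1 ∧ v c₁ = H 1 0 ∧ v c₂ = H 1 1

instance (H : Fin 2 → Fin 2 → Bool) (u v : Fin n → Bool) (c₁ c₂ : Fin n) :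
    Decidable (Pat H u v c₁ c₂) := by
  unfold Pat; infer_instance

/-- Number of pairs of columns on which the rows `u`, `v` show the pattern `H`. -/
def cop (H : Fin 2 → Fin 2 → Bool) (u v : Fin n → Bool) : ℕ :=
  #{p : Fin n × Fin n | p.1 < p.2 ∧ Pat H u v p.1 p.2}

/-- Hamming distance of two rows. -/
def ham (u v : Fin n → Bool) : ℕ := #{c | u c ≠ v c}

lemma ham_comm (u v : Fin n → Bool) : ham u v = ham v u := by
  unfold ham
  congr 1
  ext c
  simp [ne_comm]

lemma ham_self (u : Fin n → Bool) : ham u u = 0 := by
  simp [ham]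

lemma ham_triangle (u v w : Fin n → Bool) : ham u w ≤ ham u v + ham v w := by
  unfold ham
  refine le_trans (card_le_card ?_) (card_union_le _ _)
  intro c hc
  simp only [mem_filter, mem_univ, true_and, mem_union] at hc ⊢
  by_cases h : u c = v c
  · right; rw [← h]; exact hc
  · left; exact h

/-- **Deletion lemma.** Two rows with at most `h²` copies can be made copy free by deleting at most
`2h+1` columns. -/
lemma exists_deletion (H : Fin 2 → Fin 2 → Bool) (u v : Fin n → Bool) (h : ℕ)
    (hc : cop H u v ≤ h ^ 2) :
    ∃ D : Finset (Fin n), #D ≤ 2 * h + 1 ∧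
      ∀ c₁ c₂, c₁ ∉ D → c₂ ∉ D → c₁ < c₂ → ¬ Pat H u v c₁ c₂ := by
  classical
  set SA : Finset (Fin n) := {c | u c = H 0 0 ∧ v c = H 1 0} with hSA
  set SB : Finset (Fin n) := {c | u c = H 0 1 ∧ v c = H 1 1} with hSB
  let f : ℕ → ℕ := fun c => #{a ∈ SA | a.val < c}
  have hf0 : f 0 ≤ h := by simp [f]
  set cut := Nat.findGreatest (fun c => f c ≤ h) n with hcut
  have hfcut : f cut ≤ h := Nat.findGreatest_spec (P := fun c => f c ≤ h) (Nat.zero_le n) hf0
  refine ⟨{a ∈ SA | a.val < cut} ∪ {b ∈ SB | cut ≤ b.val}, ?_, ?_⟩
  · refine le_trans (card_union_le _ _) ?_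
    have h1 : #{a ∈ SA | a.val < cut} ≤ h := hfcut
    have h2 : #{b ∈ SB | cut ≤ b.val} ≤ h + 1 := by
      by_cases hlt : cut < n
      · have hnot : ¬ f (cut + 1) ≤ h :=
          Nat.findGreatest_is_greatest (P := fun c => f c ≤ h) (Nat.lt_succ_self _) hlt
        have hgt : h + 1 ≤ f (cut + 1) := by omega
        set A' : Finset (Fin n) := {a ∈ SA | a.val < cut + 1} with hA'
        set B' : Finset (Fin n) := {b ∈ SB | cut + 1 ≤ b.val} with hB'
        have hprod : #A' * #B' ≤ cop H u v := by
          rw [← card_product]
          apply card_le_card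
          intro p hp
          simp only [mem_product, hA', hB', mem_filter, hSA, hSB, mem_univ, true_and] at hp
          simp only [mem_filter, mem_univ, true_and]
          refine ⟨?_, hp.1.1.1, hp.2.1.1, hp.1.1.2, hp.2.1.2⟩
          rw [Fin.lt_def]; omega
        have hB'le : #B' ≤ h := by
          by_contra hne
          push Not at hne
          have : (h + 1) * (h + 1) ≤ #A' * #B' := Nat.mul_le_mul hgt hne
          nlinarith
        have hsub : ({b ∈ SB | cut ≤ b.val} : Finset (Fin n)) ⊆ B' ∪ {(⟨cut, hlt⟩ : Fin n)} := by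
          intro b hb
          simp only [mem_filter, hB', mem_union, mem_singleton] at hb ⊢
          by_cases hbc : b.val = cut
          · right; exact Fin.ext hbc
          · left; exact ⟨hb.1, by omega⟩
        refine le_trans (card_le_card hsub) (le_trans (card_union_le _ _) ?_)
        simp only [card_singleton]; omega
      · have : ({b ∈ SB | cut ≤ b.val} : Finset (Fin n)) = ∅ := by
          apply filter_eq_empty_iff.mpr
          intro b _ hb
          have := b.isLt
          omega
        rw [this]; simp
    omega
  · intro c₁ c₂ h₁ h₂ hlt hp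
    obtain ⟨p1, p2, p3, p4⟩ := hp
    have hc1 : c₁ ∈ SA := by simp [hSA, p1, p3]
    have hc2 : c₂ ∈ SB := by simp [hSB, p2, p4]
    simp only [mem_union, mem_filter, not_or, not_and, not_le, not_lt] at h₁ h₂
    have h3 := h₁.1 hc1
    have h4 := h₂.2 hc2
    rw [Fin.lt_def] at hlt
    omega

/-- A monotone retraction of `Fin n` onto a nonempty finite set. -/
lemma exists_retract (S : Finset (Fin n)) (hS : S.Nonempty) :
    ∃ f : Fin n → Fin n, Monotone f ∧ (∀ r, f r ∈ S) ∧ ∀ r ∈ S, f r = r := by
  classical
  refine ⟨fun r => if h : (S.filter (· ≤ r)).Nonempty then (S.filter (· ≤ r)).max' h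
    else S.min' hS, ?_, ?_, ?_⟩
  · intro r r' hrr
    dsimp only
    by_cases h : (S.filter (· ≤ r)).Nonempty
    · have hmem := max'_mem _ h
      simp only [mem_filter] at hmem
      have hm' : (S.filter (· ≤ r)).max' h ∈ S.filter (· ≤ r') :=
        mem_filter.mpr ⟨hmem.1, hmem.2.trans hrr⟩
      have h' : (S.filter (· ≤ r')).Nonempty := ⟨_, hm'⟩
      rw [dif_pos h, dif_pos h']
      exact le_max' _ _ hm'
    · rw [dif_neg h]
      by_cases h' : (S.filter (· ≤ r')).Nonempty
      · rw [dif_pos h']
        have hmem := max'_mem _ h'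
        simp only [mem_filter] at hmem
        exact min'_le _ _ hmem.1
      · rw [dif_neg h']
  · intro r
    dsimp only
    by_cases h : (S.filter (· ≤ r)).Nonempty
    · rw [dif_pos h]
      have hmem := max'_mem _ h
      simp only [mem_filter] at hmem
      exact hmem.1
    · rw [dif_neg h]
      exact min'_mem _ _
  · intro r hr
    dsimp only
    have h : (S.filter (· ≤ r)).Nonempty := ⟨r, mem_filter.mpr ⟨hr, le_refl _⟩⟩
    rw [dif_pos h]
    apply le_antisymm
    · have hmem := max'_mem _ h
      simp only [mem_filter] at hmem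
      exact hmem.2
    · have hm' : r ∈ S.filter (· ≤ r) := mem_filter.mpr ⟨hr, le_refl r⟩
      exact le_max' _ _ hm'

/-- Greedy selection: a relation with bounded forward degree has a large independent set. -/
lemma exists_independent (R : Fin n → Fin n → Prop) [DecidableRel R] (D : ℕ) (V : Finset (Fin n))
    (hdeg : ∀ v ∈ V, #{v' ∈ V | v < v' ∧ R v v'} ≤ D) :
    ∃ T ⊆ V, (∀ p ∈ T, ∀ q ∈ T, p < q → ¬ R p q) ∧ #V ≤ #T * (D + 1) := by
  classical
  induction V using Finset.strongInduction with
  | H V ih =>
    by_cases hV : V.Nonempty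
    · set v := V.min' hV with hv
      have hvmem : v ∈ V := min'_mem _ _
      set V' := {x ∈ V | x ≠ v ∧ ¬ R v x} with hV'
      have hsub : V' ⊆ V := filter_subset _ _
      have hss : V' ⊂ V := by
        refine ⟨hsub, fun hcon => ?_⟩
        have := hcon hvmem
        simp [hV'] at this
      obtain ⟨T, hT, hTind, hTc⟩ := ih V' hss (fun x hx => by
        refine le_trans (card_le_card ?_) (hdeg x (hsub hx))
        intro y hy
        simp only [mem_filter] at hy ⊢
        exact ⟨hsub hy.1, hy.2⟩)
      have hvT : v ∉ T := fun hc => by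
        have := hT hc
        simp [hV'] at this
      refine ⟨insert v T, ?_, ?_, ?_⟩
      · intro x hx
        rcases mem_insert.mp hx with rfl | hx
        · exact hvmem
        · exact hsub (hT hx)
      · intro p hp q hq hpq
        rcases mem_insert.mp hp with rfl | hp
        · rcases mem_insert.mp hq with rfl | hq
          · exact absurd hpq (lt_irrefl _)
          · have := hT hq
            simp only [hV', mem_filter] at this
            exact this.2.2
        · rcases mem_insert.mp hq with rfl | hq
          · exfalso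
            have h1 := hsub (hT hp)
            exact absurd (min'_le _ _ h1) (not_le.mpr hpq)
          · exact hTind p hp q hq hpq
      · rw [card_insert_of_notMem hvT]
        have hsplit : V ⊆ V' ∪ ({v} ∪ {v' ∈ V | v < v' ∧ R v v'}) := by
          intro x hx
          by_cases hxv : x = v
          · simp [hxv]
          · by_cases hR : R v x
            · have hlt : v < x := lt_of_le_of_ne (min'_le _ _ hx) (Ne.symm hxv)
              simp only [mem_union, mem_filter, mem_singleton]
              right; right
              exact ⟨hx, hlt, hR⟩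
            · simp only [mem_union, hV', mem_filter]
              left
              exact ⟨hx, hxv, hR⟩
        have h1 : #V ≤ #V' + (1 + D) := by
          refine le_trans (card_le_card hsplit) (le_trans (card_union_le _ _) ?_)
          have := card_union_le ({v} : Finset (Fin n)) {v' ∈ V | v < v' ∧ R v v'}
          have h3 := hdeg v hvmem
          simp only [card_singleton] at this
          omega
        nlinarith
    · rw [not_nonempty_iff_eq_empty] at hV
      subst hV
      exact ⟨∅, subset_refl _, by simp, by simp⟩

end Vale.Agent.Lib.P037
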