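import Vale.Agent.Lib.P037.Frame

/-!
# Assembly of the removal argument
-/

open Finset

namespace Vale.Agent.Lib.P037

variable {n : ℕ}

/-- Deleting columns for all the pairs of a set of rows. -/
lemma exists_columns (H : Fin 2 → Fin 2 → Bool) (A : Fin n → Fin n → Bool) (h : ℕ)
    (Rws : Finset (Fin n)) (hR : ∀ p ∈ Rws, ∀ q ∈ Rws, p < q → cop H (A p) (A q) ≤ h ^ 2) :
    ∃ D : Finset (Fin n), #D ≤ #Rws ^ 2 * (2 * h + 1) ∧
      ∀ p ∈ Rws, ∀ q ∈ Rws, p < q → ∀ c₁ c₂, c₁ ∉ D → c₂ ∉ D → c₁ < c₂ →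
        ¬ Pat H (A p) (A q) c₁ c₂ := by
  classical
  have hDel : ∀ p q : Fin n, ∃ D : Finset (Fin n), cop H (A p) (A q) ≤ h ^ 2 →
      #D ≤ 2 * h + 1 ∧ ∀ c₁ c₂, c₁ ∉ D → c₂ ∉ D → c₁ < c₂ → ¬ Pat H (A p) (A q) c₁ c₂ := by
    intro p q
    by_cases hc : cop H (A p) (A q) ≤ h ^ 2
    · obtain ⟨D, hD1, hD2⟩ := exists_deletion H (A p) (A q) h hc
      exact ⟨D, fun _ => ⟨hD1, hD2⟩⟩
    · exact ⟨∅, fun h' => absurd h' hc⟩
  choose Del hDelspec using hDel
  refine ⟨(Rws ×ˢ Rws).biUnion (fun pq => if pq.1 < pq.2 then Del pq.1 pq.2 else ∅), ?_, ?_⟩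
  · have : #Rws ^ 2 = #(Rws ×ˢ Rws) := by rw [card_product]; ring
    rw [this]
    apply card_biUnion_le_card_mul
    intro pq hpq
    rw [mem_product] at hpq
    split_ifs with hlt
    · exact (hDelspec _ _ (hR _ hpq.1 _ hpq.2 hlt)).1
    · simp
  · intro p hp q hq hlt c₁ c₂ h₁ h₂ hc
    have hsub : Del p q ⊆ (Rws ×ˢ Rws).biUnion
        (fun pq => if pq.1 < pq.2 then Del pq.1 pq.2 else ∅) := by
      intro c hc
      rw [mem_biUnion]
      refine ⟨(p, q), by simp [hp, hq], ?_⟩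
      simpa [hlt] using hc
    exact (hDelspec p q (hR p hp q hq hlt)).2 c₁ c₂ (fun h' => h₁ (hsub h')) (fun h' => h₂ (hsub h'))
      hc

/-- Extending a copy free family of rows from a set of rows and a set of columns to everything. -/
lemma exists_extension {H : Fin 2 → Fin 2 → Bool} (hrow : ∃ j, H 0 j ≠ H 1 j)
    (hcol : ∃ i, H i 0 ≠ H i 1) (Keep S : Finset (Fin n)) (hK : Keep.Nonempty) (hS : S.Nonempty)
    (v : Fin n → Fin n → Bool)
    (hfree : ∀ r₁ ∈ Keep, ∀ r₂ ∈ Keep, r₁ < r₂ → ∀ c₁ ∈ S, ∀ c₂ ∈ S, c₁ < c₂ →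
      ¬ Pat H (v r₁) (v r₂) c₁ c₂) :
    ∃ B : Fin n → Fin n → Bool, (∀ r₁ r₂ c₁ c₂, r₁ < r₂ → c₁ < c₂ → ¬ Pat H (B r₁) (B r₂) c₁ c₂) ∧
      ∀ r ∈ Keep, ∀ c ∈ S, B r c = v r c := by
  obtain ⟨f, hfm, hfS, hfid⟩ := exists_retract Keep hK
  obtain ⟨g, hgm, hgS, hgid⟩ := exists_retract S hS
  refine ⟨fun r c => v (f r) (g c), ?_, ?_⟩
  · intro r₁ r₂ c₁ c₂ hr hc hpat
    obtain ⟨h1, h2, h3, h4⟩ := hpat
    rcases lt_or_eq_of_le (hgm hc.le) with hglt | hgeq
    · rcases lt_or_eq_of_le (hfm hr.le) with hflt | hfeq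
      · exact hfree _ (hfS r₁) _ (hfS r₂) hflt _ (hgS c₁) _ (hgS c₂) hglt ⟨h1, h2, h3, h4⟩
      · -- equal rows of the copy
        obtain ⟨j, hj⟩ := hrow
        apply hj
        fin_cases j
        · show H 0 0 = H 1 0
          rw [← h1, ← h3]
          show v (f r₁) (g c₁) = v (f r₂) (g c₁)
          rw [hfeq]
        · show H 0 1 = H 1 1
          rw [← h2, ← h4]
          show v (f r₁) (g c₂) = v (f r₂) (g c₂)
          rw [hfeq]
    · obtain ⟨i, hi⟩ := hcol
      apply hi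
      fin_cases i
      · show H 0 0 = H 0 1
        rw [← h1, ← h2]
        show v (f r₁) (g c₁) = v (f r₁) (g c₂)
        rw [hgeq]
      · show H 1 0 = H 1 1
        rw [← h3, ← h4]
        show v (f r₂) (g c₁) = v (f r₂) (g c₂)
        rw [hgeq]
  · intro r hr c hc
    simp only [hfid r hr, hgid c hc]

/-- Counting differences row by row. -/
lemma card_diff_le (A B : Fin n → Fin n → Bool) (Keep : Finset (Fin n)) (Rb : ℕ)
    (hR : ∀ r ∈ Keep, #{c | A r c ≠ B r c} ≤ Rb) :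
    #{p : Fin n × Fin n | A p.1 p.2 ≠ B p.1 p.2} ≤ n * #(Keepᶜ) + n * Rb := by
  classical
  have h1 : #{p : Fin n × Fin n | A p.1 p.2 ≠ B p.1 p.2} =
      ∑ r : Fin n, #{c | A r c ≠ B r c} := by
    have hmaps : ∀ p ∈ ({p : Fin n × Fin n | A p.1 p.2 ≠ B p.1 p.2} : Finset (Fin n × Fin n)),
        Prod.fst p ∈ (univ : Finset (Fin n)) := fun _ _ => mem_univ _
    rw [card_eq_sum_card_fiberwise hmaps]
    apply sum_congr rfl
    intro r _
    apply card_bij (fun p _ => p.2)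
    · intro p hp
      simp only [mem_filter, mem_univ, true_and] at hp ⊢
      rw [← hp.2]; exact hp.1
    · intro p hp p' hp' hpp
      simp only [mem_filter, mem_univ, true_and] at hp hp'
      exact Prod.ext (hp.2.trans hp'.2.symm) hpp
    · intro c hc
      simp only [mem_filter, mem_univ, true_and] at hc
      exact ⟨(r, c), by simp [hc], rfl⟩
  rw [h1]
  have h2 : ∀ r : Fin n, #{c | A r c ≠ B r c} ≤ (if r ∈ Keep then Rb else n) := by
    intro r
    split_ifs with hr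
    · exact hR r hr
    · calc #{c | A r c ≠ B r c} ≤ #(univ : Finset (Fin n)) := card_le_card (subset_univ _)
        _ = n := by simp
  refine le_trans (sum_le_sum fun r _ => h2 r) ?_
  rw [sum_ite]
  simp only [sum_const, smul_eq_mul]
  have h3 : #(univ.filter (fun r => r ∈ Keep)) ≤ n := by
    calc _ ≤ #(univ : Finset (Fin n)) := card_le_card (subset_univ _)
      _ = n := by simp
  have h4 : univ.filter (fun r => r ∉ Keep) = Keepᶜ := by
    ext r; simp
  rw [h4]
  nlinarith [Nat.mul_le_mul_right Rb h3]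

/-- The core of the removal argument. -/
theorem removal_core {H : Fin 2 → Fin 2 → Bool} (hH : HasPair H) (hFill : FillProp H)
    (hrow : ∃ j, H 0 j ≠ H 1 j) (hcol : ∃ i, H i 0 ≠ H i 1)
    (A : Fin n → Fin n → Bool) (h d0 s k bc bt m : ℕ) (hn : 0 < n) (hs : 0 < s)
    (hm : ∀ r : Fin n, r.val / s < m)
    (hsizec : packM bc ^ 2 * (2 * h + 1) * 2 ^ (bc + 1) ≤ n)
    (hsizet : packM bt ^ 2 * (2 * h + 1) * 2 ^ (bt + 1) ≤ n)
    (hk : (2 * (m * packM bc) + 1) * d0 < k)
    (hdisc : #((Wset H A h d0)ᶜ) + packM bt * (s + d0 + k + 1) + 2 * (m * packM bc) * d0 < n)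
    (hD : (2 * (m * packM bc)) ^ 2 * (2 * h + 1) < n) :
    ∃ B : Fin n → Fin n → Bool, (∀ r₁ r₂ c₁ c₂, r₁ < r₂ → c₁ < c₂ → ¬ Pat H (B r₁) (B r₂) c₁ c₂) ∧
      #{p : Fin n × Fin n | A p.1 p.2 ≠ B p.1 p.2} ≤
        n * (#((Wset H A h d0)ᶜ) + packM bt * (s + d0 + k + 1) + 2 * (m * packM bc) * d0) +
        n * ((2 * (m * packM bc)) ^ 2 * (2 * h + 1) + n / 2 ^ bc + packM bc * (n / 2 ^ bt)) := by
  classical
  obtain ⟨F, hF, hmax⟩ := exists_max_frame H A h d0 s bc bt
  have hFcard : #F ≤ m * packM bc := frame_card hH hF hn hsizec hm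
  have hrowscard : #(rowsOf F) ≤ 2 * (m * packM bc) :=
    le_trans (card_rowsOf_le F) (Nat.mul_le_mul_left _ hFcard)
  -- columns
  obtain ⟨D, hDcard, hDfree⟩ := exists_columns H A h (rowsOf F) (fun p hp q hq hlt =>
    cop_le_of_not_Hv (hF.nonheavy p hp q hq) hlt)
  have hDcard' : #D ≤ (2 * (m * packM bc)) ^ 2 * (2 * h + 1) :=
    le_trans hDcard (Nat.mul_le_mul_right _ (Nat.pow_le_pow_left hrowscard 2))
  set S : Finset (Fin n) := Dᶜ with hS
  have hSne : S.Nonempty := by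
    by_contra hemp
    rw [not_nonempty_iff_eq_empty] at hemp
    have : #D = n := by
      have hcompl : #S = n - #D := by rw [hS, card_compl, Fintype.card_fin]
      rw [hemp, card_empty] at hcompl
      have hle : #D ≤ n := by simpa using card_le_univ D
      omega
    omega
  have hSfree : ∀ p ∈ rowsOf F, ∀ q ∈ rowsOf F, p < q → ∀ c₁ ∈ S, ∀ c₂ ∈ S, c₁ < c₂ →
      ¬ Pat H (A p) (A q) c₁ c₂ := by
    intro p hp q hq hlt c₁ hc₁ c₂ hc₂ hc
    exact hDfree p hp q hq hlt c₁ c₂ (by simpa [hS] using hc₁) (by simpa [hS] using hc₂) hc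
  -- filling
  have hblkmono : Monotone (fun r : Fin n => r.val / s) := fun a b hab =>
    Nat.div_le_div_right hab
  have hτ : ∀ w ∈ F, #{c ∈ S | A w.1 c ≠ A w.2 c} ≤ n / 2 ^ bt := by
    intro w hw
    have h1 : #{c ∈ S | A w.1 c ≠ A w.2 c} ≤ ham (A w.1) (A w.2) := by
      apply card_le_card
      intro c hc
      simp only [mem_filter, mem_univ, true_and] at hc ⊢
      exact hc.2
    have h2 := hF.close w hw
    refine le_trans h1 ?_
    rw [Nat.le_div_iff_mul_le (by positivity)]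
    rw [mul_comm]
    exact h2.le
  obtain ⟨y, hyerr, hyfree⟩ := hFill n A S F (fun r => r.val / s) (n / 2 ^ bt) hblkmono
    hF.blk_lt hτ hSfree
  -- kept rows
  set Keep : Finset (Fin n) := {r | r ∈ Wset H A h d0 ∧ r ∉ Lone H A h d0 s k bt ∧
    ∀ p ∈ rowsOf F, ¬ Hv H A h p r} with hKeep
  have hkF : (2 * #F + 1) * d0 < k := by
    refine lt_of_le_of_lt (Nat.mul_le_mul_right _ ?_) hk
    have := Nat.mul_le_mul_left 2 hFcard
    omega
  have hcover : ∀ r, ∃ w, r ∈ Keep → w ∈ F ∧ w.1.val / s = r.val / s ∧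
      2 ^ bc * ham (A r) (A w.1) < n := by
    intro r
    by_cases hr : r ∈ Keep
    · simp only [hKeep, mem_filter, mem_univ, true_and] at hr
      obtain ⟨w, hw1, hw2, hw3⟩ := frame_cover hF hmax hn hkF hr.1 hr.2.1 hr.2.2
      exact ⟨w, fun _ => ⟨hw1, hw2, hw3⟩⟩
    · exact ⟨(r, r), fun h' => absurd h' hr⟩
  choose wOf hwOf using hcover
  -- the complement of the kept rows is small
  have hKeepc : #(Keepᶜ) ≤ #((Wset H A h d0)ᶜ) + packM bt * (s + d0 + k + 1) +
      2 * (m * packM bc) * d0 := by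
    have hsub : Keepᶜ ⊆ (Wset H A h d0)ᶜ ∪ (Lone H A h d0 s k bt ∪ (rowsOf F).biUnion (nbrs H A h)) := by
      intro r hr
      simp only [hKeep, mem_compl, mem_filter, mem_univ, true_and, not_and, not_forall,
        not_not] at hr
      simp only [mem_union, mem_compl, mem_biUnion]
      by_cases h1 : r ∈ Wset H A h d0
      · by_cases h2 : r ∈ Lone H A h d0 s k bt
        · right; left; exact h2
        · obtain ⟨p, hp, hv⟩ := hr h1 h2
          right; right
          exact ⟨p, hp, mem_filter.mpr ⟨mem_univ _, hv⟩⟩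
      · left; exact h1
    refine le_trans (card_le_card hsub) (le_trans (card_union_le _ _) ?_)
    have h1 := card_union_le (Lone H A h d0 s k bt) ((rowsOf F).biUnion (nbrs H A h))
    have h2 := card_Lone hH A h d0 s k bt hn hs hsizet
    have h3 : #((rowsOf F).biUnion (nbrs H A h)) ≤ #(rowsOf F) * d0 := by
      apply card_biUnion_le_card_mul
      intro p hp
      have hpW : p ∈ Wset H A h d0 := by
        simp only [rowsOf, mem_union, mem_image] at hp
        rcases hp with ⟨w, hw, rfl⟩ | ⟨w, hw, rfl⟩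
        · exact (hF.mem_W w hw).1
        · exact (hF.mem_W w hw).2
      exact (mem_filter.mp hpW).2
    have h4 : #(rowsOf F) * d0 ≤ 2 * (m * packM bc) * d0 := Nat.mul_le_mul_right _ hrowscard
    omega
  have hKne : Keep.Nonempty := by
    by_contra hemp
    rw [not_nonempty_iff_eq_empty] at hemp
    have : #(Keepᶜ) = n := by
      rw [hemp]; simp
    omega
  -- the final matrix
  obtain ⟨B, hBfree, hBval⟩ := exists_extension hrow hcol Keep S hKne hSne
    (fun r => y (wOf r)) (by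
      intro r₁ hr₁ r₂ hr₂ hr c₁ hc₁ c₂ hc₂ hc
      obtain ⟨h1, h2, _⟩ := hwOf r₁ hr₁
      obtain ⟨h3, h4, _⟩ := hwOf r₂ hr₂
      refine hyfree _ h1 _ h3 ?_ c₁ hc₁ c₂ hc₂ hc
      show (wOf r₁).1.val / s ≤ (wOf r₂).1.val / s
      rw [h2, h4]
      exact Nat.div_le_div_right hr.le)
  refine ⟨B, hBfree, ?_⟩
  set Rb := (2 * (m * packM bc)) ^ 2 * (2 * h + 1) + n / 2 ^ bc + packM bc * (n / 2 ^ bt) with hRb
  have hrowdiff : ∀ r ∈ Keep, #{c | A r c ≠ B r c} ≤ Rb := by
    intro r hr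
    obtain ⟨hw, hwb, hwc⟩ := hwOf r hr
    have hsub : ({c | A r c ≠ B r c} : Finset (Fin n)) ⊆
        D ∪ (({c | A r c ≠ A (wOf r).1 c} : Finset (Fin n)) ∪
          {c ∈ S | y (wOf r) c ≠ A (wOf r).1 c}) := by
      intro c hc
      simp only [mem_filter, mem_univ, true_and] at hc
      simp only [mem_union, mem_filter, mem_univ, true_and]
      by_cases hcD : c ∈ D
      · left; exact hcD
      · have hcS : c ∈ S := by simpa [hS] using hcD
        right
        rw [hBval r hr c hcS] at hc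
        by_cases h1 : A r c = A (wOf r).1 c
        · right
          refine ⟨hcS, ?_⟩
          rw [← h1]
          exact fun h' => hc h'.symm
        · left; exact h1
    refine le_trans (card_le_card hsub) (le_trans (card_union_le _ _) ?_)
    have h1 := card_union_le ({c | A r c ≠ A (wOf r).1 c} : Finset (Fin n))
      {c ∈ S | y (wOf r) c ≠ A (wOf r).1 c}
    have h2 : #({c | A r c ≠ A (wOf r).1 c} : Finset (Fin n)) ≤ n / 2 ^ bc := by
      rw [Nat.le_div_iff_mul_le (by positivity), mul_comm]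
      exact hwc.le
    have h3 : #{c ∈ S | y (wOf r) c ≠ A (wOf r).1 c} ≤ packM bc * (n / 2 ^ bt) := by
      refine le_trans (hyerr _ hw) (Nat.mul_le_mul_right _ ?_)
      exact (frame_fiber hH hF hn hsizec _).le
    omega
  refine le_trans (card_diff_le A B Keep Rb hrowdiff) ?_
  exact Nat.add_le_add_right (Nat.mul_le_mul_left _ hKeepc) _

end Vale.Agent.Lib.P037
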