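import Vale.Agent.Lib.P037.Core

/-!
# Counting heavy pairs and choosing the parameters
-/

open Finset

namespace Vale.Agent.Lib.P037

variable {n : ℕ}

/-- The number of copies of the 2x2 pattern `H` in `A`. -/
def copies2 (H : Fin 2 → Fin 2 → Bool) (A : Fin n → Fin n → Bool) : ℕ :=
  #{x : (Fin n × Fin n) × (Fin n × Fin n) |
    x.1.1 < x.1.2 ∧ x.2.1 < x.2.2 ∧ Pat H (A x.1.1) (A x.1.2) x.2.1 x.2.2}

/-- Heavy pairs. -/
def heavyPairs (H : Fin 2 → Fin 2 → Bool) (A : Fin n → Fin n → Bool) (h : ℕ) :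
    Finset (Fin n × Fin n) :=
  {pq | pq.1 < pq.2 ∧ h ^ 2 < cop H (A pq.1) (A pq.2)}

lemma card_heavyPairs (H : Fin 2 → Fin 2 → Bool) (A : Fin n → Fin n → Bool) (h : ℕ) :
    #(heavyPairs H A h) * (h ^ 2 + 1) ≤ copies2 H A := by
  classical
  have h1 : #(heavyPairs H A h) * (h ^ 2 + 1) ≤ ∑ pq ∈ heavyPairs H A h, cop H (A pq.1) (A pq.2) := by
    rw [← smul_eq_mul]
    apply card_nsmul_le_sum
    intro pq hpq
    have := (mem_filter.mp hpq).2.2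
    omega
  refine le_trans h1 ?_
  unfold cop
  rw [← card_sigma]
  apply card_le_card_of_injOn (fun x => (x.1, x.2))
  · intro x hx
    simp only [coe_sigma, Set.mem_sigma_iff, mem_coe, mem_filter, mem_univ, true_and] at hx
    simp only [coe_filter, mem_univ, true_and, Set.mem_ofPred_eq]
    have h2 := (mem_filter.mp hx.1).2
    exact ⟨h2.1, hx.2.1, hx.2.2⟩
  · rintro ⟨a, b⟩ _ ⟨a', b'⟩ _ heq
    simp only [Prod.mk.injEq] at heq
    obtain ⟨h1, h2⟩ := heq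
    subst h1
    subst h2
    rfl

lemma card_nbrs_le (H : Fin 2 → Fin 2 → Bool) (A : Fin n → Fin n → Bool) (h : ℕ) (r : Fin n) :
    #(nbrs H A h r) ≤ #{x ∈ heavyPairs H A h | x.1 = r} + #{x ∈ heavyPairs H A h | x.2 = r} := by
  classical
  have h1 : nbrs H A h r ⊆ ((heavyPairs H A h).filter (fun x => x.1 = r)).image Prod.snd ∪
      ((heavyPairs H A h).filter (fun x => x.2 = r)).image Prod.fst := by
    intro q hq
    have hq' := (mem_filter.mp hq).2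
    simp only [mem_union, mem_image, mem_filter]
    rcases hq' with hq' | hq'
    · left
      exact ⟨(r, q), ⟨mem_filter.mpr ⟨mem_univ _, hq'⟩, rfl⟩, rfl⟩
    · right
      exact ⟨(q, r), ⟨mem_filter.mpr ⟨mem_univ _, hq'⟩, rfl⟩, rfl⟩
  refine le_trans (card_le_card h1) (le_trans (card_union_le _ _) ?_)
  exact Nat.add_le_add card_image_le card_image_le

lemma sum_card_nbrs (H : Fin 2 → Fin 2 → Bool) (A : Fin n → Fin n → Bool) (h : ℕ) :
    ∑ r : Fin n, #(nbrs H A h r) ≤ 2 * #(heavyPairs H A h) := by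
  classical
  have h1 : ∑ r : Fin n, #{x ∈ heavyPairs H A h | x.1 = r} = #(heavyPairs H A h) :=
    (card_eq_sum_card_fiberwise (fun _ _ => mem_univ _)).symm
  have h2 : ∑ r : Fin n, #{x ∈ heavyPairs H A h | x.2 = r} = #(heavyPairs H A h) :=
    (card_eq_sum_card_fiberwise (fun _ _ => mem_univ _)).symm
  calc ∑ r : Fin n, #(nbrs H A h r) ≤ ∑ r : Fin n,
        (#{x ∈ heavyPairs H A h | x.1 = r} + #{x ∈ heavyPairs H A h | x.2 = r}) :=
        sum_le_sum (fun r _ => card_nbrs_le H A h r)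
    _ = 2 * #(heavyPairs H A h) := by
        rw [sum_add_distrib, h1, h2]; ring

/-- Few rows have many heavy neighbours. -/
lemma card_compl_Wset (H : Fin 2 → Fin 2 → Bool) (A : Fin n → Fin n → Bool) (h d0 : ℕ) :
    #((Wset H A h d0)ᶜ) * (d0 + 1) * (h ^ 2 + 1) ≤ 2 * copies2 H A := by
  classical
  have h1 : #((Wset H A h d0)ᶜ) * (d0 + 1) ≤ 2 * #(heavyPairs H A h) := by
    rw [← smul_eq_mul]
    refine le_trans (card_nsmul_le_sum _ (fun r => #(nbrs H A h r)) _ ?_) ?_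
    · intro r hr
      simp only [Wset, mem_compl, mem_filter, mem_univ, true_and, not_le] at hr
      omega
    · exact le_trans (sum_le_sum_of_subset (subset_univ _)) (sum_card_nbrs H A h)
  calc #((Wset H A h d0)ᶜ) * (d0 + 1) * (h ^ 2 + 1) ≤ 2 * #(heavyPairs H A h) * (h ^ 2 + 1) :=
        Nat.mul_le_mul_right _ h1
    _ = 2 * (#(heavyPairs H A h) * (h ^ 2 + 1)) := by ring
    _ ≤ 2 * copies2 H A := Nat.mul_le_mul_left _ (card_heavyPairs H A h)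

lemma pow_two_le_of_le {n u E e : ℕ} (hu1 : 2 ^ E * u ≤ n) (he : e ≤ E) : 2 ^ e * u ≤ n :=
  le_trans (Nat.mul_le_mul_right _ (Nat.pow_le_pow_right (by norm_num) he)) hu1

/-- Numerical instantiation of the core. -/
theorem removal_param {H : Fin 2 → Fin 2 → Bool} (hH : HasPair H) (hFill : FillProp H)
    (hrow : ∃ j, H 0 j ≠ H 1 j) (hcol : ∃ i, H i 0 ≠ H i 1)
    (A : Fin n → Fin n → Bool) (a E x me bc bt u pc pt : ℕ) (hn : 0 < n) (hupos : 1 ≤ u)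
    (hu1 : 2 ^ E * u ≤ n) (hu2 : n ≤ 2 ^ (E + 1) * u)
    (hE : E = 51 * a + 369) (hx : x = 30 * a + 218) (hme : me = 21 * a + 152) (hbc : bc = a + 3)
    (hbt : bt = 5 * a + 32) (hpc : pc = 4 * a + 29) (hpt : pt = 20 * a + 145)
    (hcopies : copies2 H A < 16 * u ^ 4) :
    ∃ B : Fin n → Fin n → Bool, (∀ r₁ r₂ c₁ c₂, r₁ < r₂ → c₁ < c₂ → ¬ Pat H (B r₁) (B r₂) c₁ c₂) ∧
      #{p : Fin n × Fin n | A p.1 p.2 ≠ B p.1 p.2} * 2 ^ a < n ^ 2 := by
  classical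
  have h2u : 2 * u + 1 ≤ 4 * u := by omega
  obtain ⟨s, hs⟩ : ∃ s, s = 2 ^ x * u := ⟨_, rfl⟩
  obtain ⟨m, hm⟩ : ∃ m, m = 2 ^ me := ⟨_, rfl⟩
  have hspos : 0 < s := by rw [hs]; positivity
  have hmbound : ∀ r : Fin n, r.val / s < m := by
    intro r
    apply Nat.div_lt_of_lt_mul
    calc r.val < n := r.isLt
      _ ≤ 2 ^ (E + 1) * u := hu2
      _ = s * m := by
        rw [hs, hm, show E + 1 = x + me by omega, pow_add]; ring
  have hpc' : packM bc = 2 ^ pc := by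
    unfold packM; rw [show 4 * bc + 17 = pc by omega]
  have hpt' : packM bt = 2 ^ pt := by
    unfold packM; rw [show 4 * bt + 17 = pt by omega]
  have hP : m * packM bc = 2 ^ (me + pc) := by
    rw [hpc', hm, pow_add]
  have hsizec : packM bc ^ 2 * (2 * u + 1) * 2 ^ (bc + 1) ≤ n := by
    calc packM bc ^ 2 * (2 * u + 1) * 2 ^ (bc + 1)
        ≤ packM bc ^ 2 * (4 * u) * 2 ^ (bc + 1) := by gcongr
      _ = 2 ^ (2 * pc + 2 + bc + 1) * u := by rw [hpc']; ring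
      _ ≤ n := pow_two_le_of_le hu1 (by omega)
  have hsizet : packM bt ^ 2 * (2 * u + 1) * 2 ^ (bt + 1) ≤ n := by
    calc packM bt ^ 2 * (2 * u + 1) * 2 ^ (bt + 1)
        ≤ packM bt ^ 2 * (4 * u) * 2 ^ (bt + 1) := by gcongr
      _ = 2 ^ (2 * pt + 2 + bt + 1) * u := by rw [hpt']; ring
      _ ≤ n := pow_two_le_of_le hu1 (by omega)
  have hk : (2 * (m * packM bc) + 1) * u < s := by
    rw [hP, hs]
    apply Nat.mul_lt_mul_of_pos_right _ (by omega)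
    calc 2 * 2 ^ (me + pc) + 1 ≤ 2 ^ (me + pc + 2) := by
          have h3 : 2 ^ (me + pc + 2) = 4 * 2 ^ (me + pc) := by ring
          have h4 : 1 ≤ 2 ^ (me + pc) := Nat.one_le_two_pow
          omega
      _ < 2 ^ x := Nat.pow_lt_pow_right (by norm_num) (by omega)
  -- the three parts of the discarded rows
  have hW : #((Wset H A u u)ᶜ) * 2 ^ (a + 4) ≤ n := by
    have h3 := card_compl_Wset H A u u
    have h6 : #((Wset H A u u)ᶜ) * u ^ 3 ≤ #((Wset H A u u)ᶜ) * (u + 1) * (u ^ 2 + 1) := by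
      rw [mul_assoc]
      apply Nat.mul_le_mul_left
      nlinarith [pow_pos (show 0 < u by omega) 2, pow_pos (show 0 < u by omega) 3]
    have h7 : #((Wset H A u u)ᶜ) * u ^ 3 < 32 * u * u ^ 3 := by
      calc _ ≤ _ := h6
        _ ≤ _ := h3
        _ < 2 * (16 * u ^ 4) := by omega
        _ = 32 * u * u ^ 3 := by ring
    have h8 : #((Wset H A u u)ᶜ) < 32 * u :=
      Nat.lt_of_mul_lt_mul_right h7
    calc #((Wset H A u u)ᶜ) * 2 ^ (a + 4) ≤ (32 * u) * 2 ^ (a + 4) :=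
          Nat.mul_le_mul_right _ h8.le
      _ = 2 ^ (a + 9) * u := by ring
      _ ≤ n := pow_two_le_of_le hu1 (by omega)
  have hsum : s + u + s + 1 ≤ 2 ^ (x + 2) * u := by
    have h3 : u ≤ s := by
      rw [hs]
      exact Nat.le_mul_of_pos_left _ (by positivity)
    have h4 : 2 ^ (x + 2) * u = 4 * s := by rw [hs]; ring
    omega
  have hL : packM bt * (s + u + s + 1) * 2 ^ (a + 4) ≤ n := by
    calc packM bt * (s + u + s + 1) * 2 ^ (a + 4)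
        ≤ packM bt * (2 ^ (x + 2) * u) * 2 ^ (a + 4) := by gcongr
      _ = 2 ^ (pt + x + 2 + a + 4) * u := by rw [hpt']; ring
      _ ≤ n := pow_two_le_of_le hu1 (by omega)
  have hF3 : 2 * (m * packM bc) * u * 2 ^ (a + 4) ≤ n := by
    rw [hP]
    calc 2 * 2 ^ (me + pc) * u * 2 ^ (a + 4) = 2 ^ (me + pc + a + 5) * u := by ring
      _ ≤ n := pow_two_le_of_le hu1 (by omega)
  have hDb : (2 * (m * packM bc)) ^ 2 * (2 * u + 1) * 2 ^ (a + 3) ≤ n := by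
    rw [hP]
    calc (2 * 2 ^ (me + pc)) ^ 2 * (2 * u + 1) * 2 ^ (a + 3)
        ≤ (2 * 2 ^ (me + pc)) ^ 2 * (4 * u) * 2 ^ (a + 3) := by gcongr
      _ = 2 ^ (2 * (me + pc) + 2 + 2 + a + 3) * u := by ring
      _ ≤ n := pow_two_le_of_le hu1 (by omega)
  have hdpos4 : 16 ≤ 2 ^ (a + 4) := by
    calc 16 = 2 ^ 4 := by norm_num
      _ ≤ 2 ^ (a + 4) := Nat.pow_le_pow_right (by norm_num) (by omega)
  have hdpos3 : 8 ≤ 2 ^ (a + 3) := by
    calc 8 = 2 ^ 3 := by norm_num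
      _ ≤ 2 ^ (a + 3) := Nat.pow_le_pow_right (by norm_num) (by omega)
  obtain ⟨X1, hX1⟩ : ∃ X1, X1 = #((Wset H A u u)ᶜ) := ⟨_, rfl⟩
  obtain ⟨X2, hX2⟩ : ∃ X2, X2 = packM bt * (s + u + s + 1) := ⟨_, rfl⟩
  obtain ⟨X3, hX3⟩ : ∃ X3, X3 = 2 * (m * packM bc) * u := ⟨_, rfl⟩
  obtain ⟨Y1, hY1⟩ : ∃ Y1, Y1 = (2 * (m * packM bc)) ^ 2 * (2 * u + 1) := ⟨_, rfl⟩
  rw [← hX1] at hW
  rw [← hX2] at hL
  rw [← hX3] at hF3
  rw [← hY1] at hDb
  obtain ⟨T, hT⟩ : ∃ T, T = 2 ^ (a + 4) := ⟨_, rfl⟩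
  rw [← hT] at hW hL hF3 hdpos4
  have hX : (X1 + X2 + X3) * T ≤ 3 * n := by
    have : (X1 + X2 + X3) * T = X1 * T + X2 * T + X3 * T := by ring
    omega
  have hdisc : X1 + X2 + X3 < n := by
    have h3 : (X1 + X2 + X3) * 16 ≤ (X1 + X2 + X3) * T := Nat.mul_le_mul_left _ hdpos4
    omega
  have hDlt : Y1 < n := by
    have h3 : Y1 * 8 ≤ Y1 * 2 ^ (a + 3) := Nat.mul_le_mul_left _ hdpos3
    omega
  rw [hX1, hX2, hX3] at hdisc
  rw [hY1] at hDlt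
  obtain ⟨B, hBfree, hBdiff⟩ := removal_core hH hFill hrow hcol A u u s s bc bt m hn hspos hmbound
    hsizec hsizet hk hdisc hDlt
  refine ⟨B, hBfree, ?_⟩
  rw [← hX1, ← hX2, ← hX3, ← hY1] at hBdiff
  obtain ⟨Z, hZ⟩ : ∃ Z, Z = #{p : Fin n × Fin n | A p.1 p.2 ≠ B p.1 p.2} := ⟨_, rfl⟩
  rw [← hZ] at hBdiff ⊢
  have hY2 : (n / 2 ^ bc) * 2 ^ (a + 3) ≤ n := by
    rw [hbc]; exact Nat.div_mul_le_self _ _
  have hY3 : (packM bc * (n / 2 ^ bt)) * 2 ^ (a + 3) ≤ n := by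
    have : packM bc * (n / 2 ^ bt) * 2 ^ (a + 3) = 2 ^ bt * (n / 2 ^ bt) := by
      rw [hpc', show bt = pc + (a + 3) by omega, pow_add]; ring
    rw [this]
    exact Nat.mul_div_le _ _
  obtain ⟨Y2, hY2def⟩ : ∃ Y2, Y2 = n / 2 ^ bc := ⟨_, rfl⟩
  obtain ⟨Y3, hY3def⟩ : ∃ Y3, Y3 = packM bc * (n / 2 ^ bt) := ⟨_, rfl⟩
  rw [← hY2def] at hY2 hBdiff
  rw [← hY3def] at hY3 hBdiff
  have hTT : T = 2 * 2 ^ (a + 3) := by rw [hT]; ring
  have hY : (Y1 + Y2 + Y3) * T ≤ 6 * n := by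
    have : (Y1 + Y2 + Y3) * T =
        2 * (Y1 * 2 ^ (a + 3) + Y2 * 2 ^ (a + 3) + Y3 * 2 ^ (a + 3)) := by rw [hTT]; ring
    omega
  have hfinal : Z * T ≤ 9 * n ^ 2 := by
    calc Z * T ≤ (n * (X1 + X2 + X3) + n * (Y1 + Y2 + Y3)) * T :=
          Nat.mul_le_mul_right _ hBdiff
      _ = n * ((X1 + X2 + X3) * T) + n * ((Y1 + Y2 + Y3) * T) := by ring
      _ ≤ n * (3 * n) + n * (6 * n) :=
          Nat.add_le_add (Nat.mul_le_mul_left _ hX) (Nat.mul_le_mul_left _ hY)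
      _ = 9 * n ^ 2 := by ring
  have h16 : Z * T = 16 * (Z * 2 ^ a) := by rw [hT]; ring
  have hn2 : 0 < n ^ 2 := by positivity
  omega

/-- The quantitative removal statement for a pattern with the packing and the filling property. -/
theorem removal_of_few {H : Fin 2 → Fin 2 → Bool} (hH : HasPair H) (hFill : FillProp H)
    (hrow : ∃ j, H 0 j ≠ H 1 j) (hcol : ∃ i, H i 0 ≠ H i 1)
    (A : Fin n → Fin n → Bool) (a : ℕ) (hn : 0 < n)
    (hfew : copies2 H A * 2 ^ (4 * (51 * a + 369)) < n ^ 4) :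
    ∃ B : Fin n → Fin n → Bool, (∀ r₁ r₂ c₁ c₂, r₁ < r₂ → c₁ < c₂ → ¬ Pat H (B r₁) (B r₂) c₁ c₂) ∧
      #{p : Fin n × Fin n | A p.1 p.2 ≠ B p.1 p.2} * 2 ^ a < n ^ 2 := by
  classical
  rcases Nat.eq_zero_or_pos (copies2 H A) with h0 | hpos
  · refine ⟨A, ?_, ?_⟩
    · intro r₁ r₂ c₁ c₂ hr hc hpat
      have hmem : ((r₁, r₂), (c₁, c₂)) ∈ ({x : (Fin n × Fin n) × (Fin n × Fin n) |
          x.1.1 < x.1.2 ∧ x.2.1 < x.2.2 ∧ Pat H (A x.1.1) (A x.1.2) x.2.1 x.2.2} :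
            Finset ((Fin n × Fin n) × (Fin n × Fin n))) :=
        mem_filter.mpr ⟨mem_univ _, hr, hc, hpat⟩
      have hpos' := card_pos.mpr ⟨_, hmem⟩
      unfold copies2 at h0
      omega
    · simp only [ne_eq, not_true_eq_false, filter_false, card_empty, zero_mul]
      positivity
  · obtain ⟨E, hE⟩ : ∃ E, E = 51 * a + 369 := ⟨_, rfl⟩
    rw [← hE] at hfew
    have h1 : (2 ^ E) ^ 4 < n ^ 4 := by
      calc (2 ^ E) ^ 4 = 2 ^ (4 * E) := by rw [← pow_mul, mul_comm]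
        _ ≤ copies2 H A * 2 ^ (4 * E) := Nat.le_mul_of_pos_left _ hpos
        _ < n ^ 4 := hfew
    have hEn : 2 ^ E < n := lt_of_pow_lt_pow_left₀ 4 (Nat.zero_le _) h1
    obtain ⟨u, hu⟩ : ∃ u, u = n / 2 ^ E := ⟨_, rfl⟩
    have hupos : 1 ≤ u := by
      rw [hu]; exact (Nat.one_le_div_iff (by positivity)).mpr hEn.le
    have hu1 : 2 ^ E * u ≤ n := by
      rw [hu]; exact Nat.mul_div_le _ _
    have hu2 : n ≤ 2 ^ (E + 1) * u := by
      have := Nat.lt_mul_div_succ n (show 0 < 2 ^ E by positivity)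
      rw [← hu] at this
      calc n ≤ 2 ^ E * (u + 1) := this.le
        _ ≤ 2 ^ E * (2 * u) := Nat.mul_le_mul_left _ (by omega)
        _ = 2 ^ (E + 1) * u := by ring
    have hcop : copies2 H A < 16 * u ^ 4 := by
      have h5 : 2 ^ (4 * E) * copies2 H A < 2 ^ (4 * E) * (16 * u ^ 4) := by
        calc 2 ^ (4 * E) * copies2 H A = copies2 H A * 2 ^ (4 * E) := by ring
          _ < n ^ 4 := hfew
          _ ≤ (2 ^ (E + 1) * u) ^ 4 := Nat.pow_le_pow_left hu2 4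
          _ = 2 ^ (4 * E) * (16 * u ^ 4) := by ring
      exact Nat.lt_of_mul_lt_mul_left h5
    exact removal_param hH hFill hrow hcol A a E _ _ _ _ u _ _ hn hupos hu1 hu2 hE rfl rfl rfl rfl
      rfl rfl hcop

end Vale.Agent.Lib.P037
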