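import Mathlib

/-!
# Ordered copies of a pattern in a binary matrix

Binary `n × n` matrices are functions `Fin n → Fin n → Bool`.
-/

open Finset

namespace Vale.Agent.Lib.P037.Defs

open Classical in
/-- `ordCopies H A`: the number of ordered copies of the `k × k` pattern `H` in the `n × n` binary
matrix `A`, i.e. of pairs of strictly increasing maps `r, c : Fin k → Fin n` with
`A (r i) (c j) = H i j` for all `i, j`. -/
noncomputable def ordCopies {k n : ℕ} (H : Fin k → Fin k → Bool) (A : Fin n → Fin n → Bool) : ℕ :=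
  #{p : (Fin k → Fin n) × (Fin k → Fin n) |
    StrictMono p.1 ∧ StrictMono p.2 ∧ ∀ i j, A (p.1 i) (p.2 j) = H i j}

/-- `entryDiff A B`: the number of entries `(r, c)` with `A r c ≠ B r c`. -/
def entryDiff {n : ℕ} (A B : Fin n → Fin n → Bool) : ℕ :=
  #{p : Fin n × Fin n | A p.1 p.2 ≠ B p.1 p.2}

/-- `IsFar H A ε`: the matrix `A` is `ε`-far from `H`-free, i.e. every `H`-free matrix `B` of the
same size differs from `A` in at least `ε n²` entries. -/
def IsFar {k n : ℕ} (H : Fin k → Fin k → Bool) (A : Fin n → Fin n → Bool) (ε : ℝ) : Prop :=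
  ∀ B : Fin n → Fin n → Bool, ordCopies H B = 0 → ε * (n : ℝ) ^ 2 ≤ (entryDiff A B : ℝ)

end Vale.Agent.Lib.P037.Defs
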