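import Vale.Agent.Lib.P037.Symm

/-!
# Patterns with two equal rows

These patterns are handled row by row: a row with few pairs of columns showing the common row of the
pattern is made free of such pairs with few changes, and the Cauchy-Schwarz inequality bounds the
number of the other rows.  Transposition gives the patterns with two equal columns, so that all the
2x2 patterns are covered.
-/

open Finset

namespace Vale.Agent.Lib.P037

variable {n : ℕ}

/-- Pairs of columns on which the row `u` shows `a`, `b`. -/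
def rowPairs (a b : Bool) (u : Fin n → Bool) : Finset (Fin n × Fin n) :=
  {p | p.1 < p.2 ∧ u p.1 = a ∧ u p.2 = b}

lemma rowPairs_card_eq_cop (a b : Bool) (u : Fin n → Bool) :
    #(rowPairs a b u) = cop (mk a b a b) u u := by
  unfold cop rowPairs
  congr 1
  ext p
  simp only [mem_filter, mem_univ, true_and, pat_mk]
  constructor
  · rintro ⟨h1, h2, h3⟩
    exact ⟨h1, h2, h3, h2, h3⟩
  · rintro ⟨h1, h2, h3, _, _⟩
    exact ⟨h1, h2, h3⟩

/-- A row with few pairs can be made free of pairs. -/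
lemma row_fix (a b : Bool) (u : Fin n → Bool) (h : ℕ) (hu : #(rowPairs a b u) ≤ h ^ 2) :
    ∃ v : Fin n → Bool, (∀ c₁ c₂, c₁ < c₂ → ¬ (v c₁ = a ∧ v c₂ = b)) ∧
      #{c | u c ≠ v c} ≤ 2 * h + 2 := by
  classical
  rw [rowPairs_card_eq_cop] at hu
  obtain ⟨D, hD1, hD2⟩ := exists_deletion (mk a b a b) u u h hu
  have hD3 : ∀ c₁ c₂, c₁ ∉ D → c₂ ∉ D → c₁ < c₂ → ¬ (u c₁ = a ∧ u c₂ = b) := by
    intro c₁ c₂ h₁ h₂ hc hp
    exact hD2 c₁ c₂ h₁ h₂ hc (pat_mk.mpr ⟨hp.1, hp.2, hp.1, hp.2⟩)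
  by_cases hab : a = b
  · subst hab
    refine ⟨fun _ => !a, ?_, ?_⟩
    · rintro c₁ c₂ _ ⟨h1, _⟩
      cases a <;> simp at h1
    · -- at most one occurrence of `a` outside `D`
      have hsub : ({c | u c ≠ !a} : Finset (Fin n)) ⊆ D ∪ ({c | c ∉ D ∧ u c = a} : Finset (Fin n)) := by
        intro c hc
        simp only [mem_union, mem_filter, mem_univ, true_and] at hc ⊢
        by_cases hcD : c ∈ D
        · left; exact hcD
        · right
          refine ⟨hcD, ?_⟩
          cases hv : u c <;> cases a <;> simp_all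
      have hone : #({c | c ∉ D ∧ u c = a} : Finset (Fin n)) ≤ 1 := by
        rw [card_le_one]
        intro c₁ hc₁ c₂ hc₂
        simp only [mem_filter, mem_univ, true_and] at hc₁ hc₂
        rcases lt_trichotomy c₁ c₂ with hlt | heq | hgt
        · exact absurd ⟨hc₁.2, hc₂.2⟩ (hD3 c₁ c₂ hc₁.1 hc₂.1 hlt)
        · exact heq
        · exact absurd ⟨hc₂.2, hc₁.2⟩ (hD3 c₂ c₁ hc₂.1 hc₁.1 hgt)
      refine le_trans (card_le_card hsub) (le_trans (card_union_le _ _) ?_)
      omega
  · by_cases hne : (Dᶜ).Nonempty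
    · obtain ⟨g, hgm, hgS, hgid⟩ := exists_retract Dᶜ hne
      refine ⟨fun c => u (g c), ?_, ?_⟩
      · rintro c₁ c₂ hc ⟨h1, h2⟩
        rcases lt_or_eq_of_le (hgm hc.le) with hlt | heq
        · exact hD3 (g c₁) (g c₂) (by simpa using hgS c₁) (by simpa using hgS c₂) hlt ⟨h1, h2⟩
        · apply hab
          rw [← h1, ← h2]
          show u (g c₁) = u (g c₂)
          rw [heq]
      · have hsub : ({c | u c ≠ u (g c)} : Finset (Fin n)) ⊆ D := by
          intro c hc
          simp only [mem_filter, mem_univ, true_and] at hc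
          by_contra hcD
          apply hc
          rw [hgid c (by simpa using hcD)]
        refine le_trans (card_le_card hsub) ?_
        omega
    · refine ⟨fun _ => a, ?_, ?_⟩
      · rintro c₁ c₂ _ ⟨_, h2⟩
        exact hab h2
      · have hD : D = univ := by
          rw [not_nonempty_iff_eq_empty, compl_eq_empty_iff] at hne
          exact hne
        refine le_trans (card_le_card (subset_univ _)) ?_
        rw [← hD]
        omega

/-- The Cauchy-Schwarz step. -/
lemma rowPairs_cauchy (a b : Bool) (A : Fin n → Fin n → Bool) :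
    (∑ r, #(rowPairs a b (A r))) ^ 2 ≤
      n ^ 2 * (2 * copies2 (mk a b a b) A + ∑ r, #(rowPairs a b (A r))) := by
  classical
  set Pairs : Finset (Fin n × Fin n) := {p | p.1 < p.2} with hPairs
  set T : Fin n × Fin n → Finset (Fin n) := fun p => {r | A r p.1 = a ∧ A r p.2 = b} with hT
  have hS : ∑ r, #(rowPairs a b (A r)) = ∑ p ∈ Pairs, #(T p) := by
    let R : Fin n × Fin n → Fin n → Prop := fun p r => A r p.1 = a ∧ A r p.2 = b
    have h2 := sum_card_bipartiteAbove_eq_sum_card_bipartiteBelow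
      (s := Pairs) (t := (univ : Finset (Fin n))) R
    have h3 : ∀ r, rowPairs a b (A r) = bipartiteBelow R Pairs r := by
      intro r
      ext p
      simp only [rowPairs, bipartiteBelow, hPairs, R, mem_filter, mem_univ, true_and]
    simp only [h3]
    exact h2.symm
  -- the ordered pairs of rows in `T p`
  set Lt : Fin n × Fin n → Finset (Fin n × Fin n) :=
    fun p => {q | q.1 < q.2 ∧ q.1 ∈ T p ∧ q.2 ∈ T p} with hLt
  have hsq : ∀ p, #(T p) ^ 2 ≤ #(T p) + 2 * #(Lt p) := by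
    intro p
    have hsub : T p ×ˢ T p ⊆ (T p).image (fun r => (r, r)) ∪
        (Lt p ∪ (Lt p).image Prod.swap) := by
      rintro ⟨r₁, r₂⟩ hq
      rw [mem_product] at hq
      simp only [mem_union, mem_image, hLt, mem_filter, mem_univ, true_and]
      rcases lt_trichotomy r₁ r₂ with hlt | heq | hgt
      · right; left; exact ⟨hlt, hq.1, hq.2⟩
      · left; exact ⟨r₁, hq.1, by rw [heq]⟩
      · right; right
        exact ⟨(r₂, r₁), ⟨hgt, hq.2, hq.1⟩, rfl⟩
    have h1 := card_le_card hsub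
    rw [card_product] at h1
    have h2 : #((T p).image (fun r => (r, r))) ≤ #(T p) := card_image_le
    have h3 : #((Lt p).image Prod.swap) ≤ #(Lt p) := card_image_le
    have h4 := card_union_le ((T p).image (fun r => (r, r))) (Lt p ∪ (Lt p).image Prod.swap)
    have h5 := card_union_le (Lt p) ((Lt p).image Prod.swap)
    rw [sq]
    omega
  have hLtsum : ∑ p ∈ Pairs, #(Lt p) ≤ copies2 (mk a b a b) A := by
    rw [← card_sigma]
    unfold copies2
    apply card_le_card_of_injOn (fun x => (x.2, x.1))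
    · rintro ⟨p, q⟩ hx
      simp only [coe_sigma, Set.mem_sigma_iff, mem_coe, hPairs, hLt, hT, mem_filter, mem_univ,
        true_and] at hx
      simp only [coe_filter, mem_univ, true_and, Set.mem_ofPred_eq, pat_mk]
      exact ⟨hx.2.1, hx.1, hx.2.2.1.1, hx.2.2.1.2, hx.2.2.2.1, hx.2.2.2.2⟩
    · rintro ⟨p, q⟩ _ ⟨p', q'⟩ _ heq
      simp only [Prod.mk.injEq] at heq
      obtain ⟨h1, h2⟩ := heq
      subst h1 h2
      rfl
  have hPcard : #Pairs ≤ n ^ 2 := by
    calc #Pairs ≤ #(univ : Finset (Fin n × Fin n)) := card_le_card (subset_univ _)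
      _ = n ^ 2 := by simp [sq]
  rw [hS]
  have hCS : (∑ p ∈ Pairs, (#(T p) : ℤ)) ^ 2 ≤ #Pairs * ∑ p ∈ Pairs, (#(T p) : ℤ) ^ 2 :=
    sq_sum_le_card_mul_sum_sq
  have hCS' : (∑ p ∈ Pairs, #(T p)) ^ 2 ≤ #Pairs * ∑ p ∈ Pairs, #(T p) ^ 2 := by
    exact_mod_cast hCS
  refine le_trans hCS' (Nat.mul_le_mul hPcard ?_)
  calc ∑ p ∈ Pairs, #(T p) ^ 2 ≤ ∑ p ∈ Pairs, (#(T p) + 2 * #(Lt p)) :=
        sum_le_sum (fun p _ => hsq p)
    _ = ∑ p ∈ Pairs, #(T p) + 2 * ∑ p ∈ Pairs, #(Lt p) := by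
        rw [sum_add_distrib, mul_sum]
    _ ≤ 2 * copies2 (mk a b a b) A + ∑ p ∈ Pairs, #(T p) := by omega

/-- Patterns with equal rows are good. -/
theorem good_equalRows (a b : Bool) : Good (mk a b a b) := by
  classical
  intro n A e hn hfew
  rcases Nat.eq_zero_or_pos (copies2 (mk a b a b) A) with h0 | hpos
  · refine ⟨A, ?_, ?_⟩
    · intro r₁ r₂ c₁ c₂ hr hc hpat
      have hmem : ((r₁, r₂), (c₁, c₂)) ∈ ({x : (Fin n × Fin n) × (Fin n × Fin n) |
          x.1.1 < x.1.2 ∧ x.2.1 < x.2.2 ∧ Pat (mk a b a b) (A x.1.1) (A x.1.2) x.2.1 x.2.2} :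
            Finset ((Fin n × Fin n) × (Fin n × Fin n))) :=
        mem_filter.mpr ⟨mem_univ _, hr, hc, hpat⟩
      have hpos' := card_pos.mpr ⟨_, hmem⟩
      unfold copies2 at h0
      omega
    · simp only [ne_eq, not_true_eq_false, filter_false, card_empty, zero_mul]
      positivity
  · obtain ⟨c, hc⟩ : ∃ c, c = copies2 (mk a b a b) A := ⟨_, rfl⟩
    rw [← hc] at hfew hpos
    obtain ⟨E, hE⟩ : ∃ E, E = 51 * e + 369 := ⟨_, rfl⟩
    rw [← hE] at hfew
    have h1 : (2 ^ E) ^ 4 < n ^ 4 := by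
      calc (2 ^ E) ^ 4 = 2 ^ (4 * E) := by rw [← pow_mul, mul_comm]
        _ ≤ c * 2 ^ (4 * E) := Nat.le_mul_of_pos_left _ hpos
        _ < n ^ 4 := hfew
    have hEn : 2 ^ E < n := lt_of_pow_lt_pow_left₀ 4 (Nat.zero_le _) h1
    obtain ⟨h, hh⟩ : ∃ h, h = n / 2 ^ (e + 4) := ⟨_, rfl⟩
    have hE4 : 2 ^ (e + 4) ≤ n := le_trans (Nat.pow_le_pow_right (by norm_num) (by omega)) hEn.le
    have hu1 : 2 ^ (e + 4) * h ≤ n := by
      rw [hh]; exact Nat.mul_div_le _ _
    have hupos : 1 ≤ h := by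
      rw [hh]; exact (Nat.one_le_div_iff (by positivity)).mpr hE4
    have hu2 : n ≤ 2 ^ (e + 5) * h := by
      have := Nat.lt_mul_div_succ n (show 0 < 2 ^ (e + 4) by positivity)
      rw [← hh] at this
      calc n ≤ 2 ^ (e + 4) * (h + 1) := this.le
        _ ≤ 2 ^ (e + 4) * (2 * h) := Nat.mul_le_mul_left _ (by omega)
        _ = 2 ^ (e + 5) * h := by ring
    have hhlarge : 2 ^ (2 * e + 10) ≤ h := by
      rw [hh, Nat.le_div_iff_mul_le (by positivity)]
      calc 2 ^ (2 * e + 10) * 2 ^ (e + 4) = 2 ^ (3 * e + 14) := by rw [← pow_add]; congr 1; ring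
        _ ≤ 2 ^ E := Nat.pow_le_pow_right (by norm_num) (by omega)
        _ ≤ n := hEn.le
    have hcsmall : c * 2 ^ (2 * e + 12) ≤ h ^ 4 := by
      have h5 : c * 2 ^ (2 * e + 12) * 2 ^ (4 * e + 20) ≤ h ^ 4 * 2 ^ (4 * e + 20) := by
        calc c * 2 ^ (2 * e + 12) * 2 ^ (4 * e + 20) = c * 2 ^ (6 * e + 32) := by
              rw [mul_assoc, ← pow_add]; congr 2; ring
          _ ≤ c * 2 ^ (4 * E) := Nat.mul_le_mul_left _ (Nat.pow_le_pow_right (by norm_num) (by omega))
          _ ≤ n ^ 4 := hfew.le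
          _ ≤ (2 ^ (e + 5) * h) ^ 4 := Nat.pow_le_pow_left hu2 4
          _ = h ^ 4 * 2 ^ (4 * e + 20) := by ring
      exact Nat.le_of_mul_le_mul_right h5 (by positivity)
    -- light rows
    set Light : Finset (Fin n) := {r | #(rowPairs a b (A r)) ≤ h ^ 2} with hLight
    have hfix : ∀ r, ∃ v : Fin n → Bool, (∀ c₁ c₂, c₁ < c₂ → ¬ (v c₁ = a ∧ v c₂ = b)) ∧
        (r ∈ Light → #{c | A r c ≠ v c} ≤ 2 * h + 2) := by
      intro r
      by_cases hr : r ∈ Light
      · obtain ⟨v, hv1, hv2⟩ := row_fix a b (A r) h (mem_filter.mp hr).2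
        exact ⟨v, hv1, fun _ => hv2⟩
      · obtain ⟨v, hv1, _⟩ := row_fix a b (fun _ => !a) 0 (by
          have : rowPairs a b (fun _ : Fin n => !a) = ∅ := by
            apply filter_eq_empty_iff.mpr
            rintro p _ ⟨_, h2, _⟩
            cases a <;> simp at h2
          rw [this]; simp)
        exact ⟨v, hv1, fun h' => absurd h' hr⟩
    choose B hB1 hB2 using hfix
    refine ⟨B, ?_, ?_⟩
    · intro r₁ r₂ c₁ c₂ _ hc' hpat
      obtain ⟨h2, h3, _, _⟩ := pat_mk.mp hpat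
      exact hB1 r₁ c₁ c₂ hc' ⟨h2, h3⟩
    · have hdiff := card_diff_le A B Light (2 * h + 2) hB2
      -- heavy rows are few
      have hL : #(Lightᶜ) * 2 ^ (e + 2) ≤ n := by
        by_contra hcon
        push Not at hcon
        obtain ⟨S, hS⟩ : ∃ S, S = ∑ r, #(rowPairs a b (A r)) := ⟨_, rfl⟩
        have hC := rowPairs_cauchy a b A
        rw [← hS, ← hc] at hC
        have hLh : 4 * h < #(Lightᶜ) := by
          have h5 : 2 ^ (e + 2) * (4 * h) < 2 ^ (e + 2) * #(Lightᶜ) := by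
            calc 2 ^ (e + 2) * (4 * h) = 2 ^ (e + 4) * h := by ring
              _ ≤ n := hu1
              _ < #(Lightᶜ) * 2 ^ (e + 2) := hcon
              _ = _ := by ring
          exact Nat.lt_of_mul_lt_mul_left h5
        have hSlow : 4 * h ^ 3 < S := by
          have h6 : #(Lightᶜ) * (h ^ 2 + 1) ≤ S := by
            rw [hS, ← smul_eq_mul]
            refine le_trans (card_nsmul_le_sum _ (fun r => #(rowPairs a b (A r))) _ ?_)
              (sum_le_sum_of_subset (subset_univ _))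
            intro r hr
            simp only [hLight, mem_compl, mem_filter, mem_univ, true_and, not_le] at hr
            omega
          have h7 : 4 * h ^ 3 < #(Lightᶜ) * (h ^ 2 + 1) := by
            calc 4 * h ^ 3 = (4 * h) * h ^ 2 := by ring
              _ < #(Lightᶜ) * h ^ 2 := Nat.mul_lt_mul_of_pos_right hLh (by positivity)
              _ ≤ _ := Nat.mul_le_mul_left _ (by omega)
          omega
        have hnsq : n ^ 2 ≤ 2 ^ (2 * e + 10) * h ^ 2 := by
          calc n ^ 2 ≤ (2 ^ (e + 5) * h) ^ 2 := Nat.pow_le_pow_left hu2 2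
            _ = _ := by ring
        obtain ⟨K, hK⟩ : ∃ K, K = 2 ^ (2 * e + 10) := ⟨_, rfl⟩
        rw [← hK] at hnsq hhlarge
        have hC2 : S ^ 2 ≤ K * h ^ 2 * (2 * c + S) :=
          le_trans hC (Nat.mul_le_mul_right _ hnsq)
        have hcK : c * (4 * K) ≤ h ^ 4 := by
          have : c * 2 ^ (2 * e + 12) = c * (4 * K) := by rw [hK]; ring
          omega
        have hSpos : 0 < S := by omega
        by_cases hcase : 2 * c ≤ S
        · have h8 : S * S ≤ (2 * K * h ^ 2) * S := by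
            calc S * S = S ^ 2 := by ring
              _ ≤ K * h ^ 2 * (2 * c + S) := hC2
              _ ≤ K * h ^ 2 * (S + S) := Nat.mul_le_mul_left _ (by omega)
              _ = _ := by ring
          have h9 := Nat.le_of_mul_le_mul_right h8 hSpos
          have h10 : 2 * K * h ^ 2 ≤ 2 * h * h ^ 2 := by gcongr
          have h11 : 2 * h * h ^ 2 = 2 * h ^ 3 := by ring
          have h12 : 0 < h ^ 3 := by positivity
          omega
        · have h8 : (4 * h ^ 3) * (4 * h ^ 3) ≤ K * h ^ 2 * (4 * c) := by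
            calc (4 * h ^ 3) * (4 * h ^ 3) ≤ S * S := Nat.mul_le_mul hSlow.le hSlow.le
              _ = S ^ 2 := by ring
              _ ≤ K * h ^ 2 * (2 * c + S) := hC2
              _ ≤ K * h ^ 2 * (4 * c) := Nat.mul_le_mul_left _ (by omega)
          have h9 : h ^ 2 * (16 * h ^ 4) ≤ h ^ 2 * (c * (4 * K)) := by
            calc h ^ 2 * (16 * h ^ 4) = (4 * h ^ 3) * (4 * h ^ 3) := by ring
              _ ≤ _ := h8
              _ = _ := by ring
          have h10 := Nat.le_of_mul_le_mul_left h9 (by positivity)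
          have h11 : 0 < h ^ 4 := by positivity
          omega
      -- the final count
      obtain ⟨Z, hZ⟩ : ∃ Z, Z = #{p : Fin n × Fin n | A p.1 p.2 ≠ B p.1 p.2} := ⟨_, rfl⟩
      rw [← hZ] at hdiff ⊢
      have h2h : (2 * h + 2) * 2 ^ (e + 2) ≤ n := by
        calc (2 * h + 2) * 2 ^ (e + 2) ≤ (4 * h) * 2 ^ (e + 2) :=
              Nat.mul_le_mul_right _ (by omega)
          _ = 2 ^ (e + 4) * h := by ring
          _ ≤ n := hu1
      have hfinal : Z * 2 ^ (e + 2) ≤ 2 * n ^ 2 := by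
        calc Z * 2 ^ (e + 2) ≤ (n * #(Lightᶜ) + n * (2 * h + 2)) * 2 ^ (e + 2) :=
              Nat.mul_le_mul_right _ hdiff
          _ = n * (#(Lightᶜ) * 2 ^ (e + 2)) + n * ((2 * h + 2) * 2 ^ (e + 2)) := by ring
          _ ≤ n * n + n * n := Nat.add_le_add (Nat.mul_le_mul_left _ hL) (Nat.mul_le_mul_left _ h2h)
          _ = 2 * n ^ 2 := by ring
      have h4 : Z * 2 ^ (e + 2) = 4 * (Z * 2 ^ e) := by ring
      have hn2 : 0 < n ^ 2 := by positivity
      omega

/-- Transposition. -/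
lemma good_transpose {a b c d : Bool} (hG : Good (mk a b c d)) : Good (mk a c b d) := by
  classical
  intro n A e hn hfew
  set A' : Fin n → Fin n → Bool := fun r c => A c r with hA'
  have hle : copies2 (mk a b c d) A' ≤ copies2 (mk a c b d) A := by
    unfold copies2
    apply card_le_card_of_injOn (fun x => (x.2, x.1))
    · rintro ⟨⟨r₁, r₂⟩, c₁, c₂⟩ hx
      simp only [coe_filter, mem_univ, true_and, Set.mem_ofPred_eq, pat_mk, hA'] at hx ⊢
      obtain ⟨h1, h2, h3, h4, h5, h6⟩ := hx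
      exact ⟨h2, h1, h3, h5, h4, h6⟩
    · rintro ⟨⟨r₁, r₂⟩, c₁, c₂⟩ _ ⟨⟨r₁', r₂'⟩, c₁', c₂'⟩ _ heq
      simp only [Prod.mk.injEq] at heq
      obtain ⟨⟨h1, h2⟩, h3, h4⟩ := heq
      subst h1 h2 h3 h4
      rfl
  obtain ⟨B', hB'free, hB'diff⟩ := hG n A' e hn (lt_of_le_of_lt (Nat.mul_le_mul_right _ hle) hfew)
  refine ⟨fun r c => B' c r, ?_, ?_⟩
  · intro r₁ r₂ c₁ c₂ hr hc hpat
    rw [pat_mk] at hpat
    obtain ⟨h1, h2, h3, h4⟩ := hpat
    exact hB'free c₁ c₂ r₁ r₂ hc hr (pat_mk.mpr ⟨h1, h3, h2, h4⟩)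
  · refine lt_of_le_of_lt (Nat.mul_le_mul_right _ ?_) hB'diff
    apply card_le_card_of_injOn (fun x => (x.2, x.1))
    · rintro ⟨r, c⟩ hx
      simp only [coe_filter, mem_univ, true_and, Set.mem_ofPred_eq, hA'] at hx ⊢
      exact hx
    · rintro ⟨r, c⟩ _ ⟨r', c'⟩ _ heq
      simp only [Prod.mk.injEq] at heq
      obtain ⟨h1, h2⟩ := heq
      subst h1 h2
      rfl

/-- Every 2x2 pattern is good. -/
theorem good_all (H : Fin 2 → Fin 2 → Bool) : Good H := by
  rw [eq_mk H]
  by_cases hr : H 0 0 = H 1 0 ∧ H 0 1 = H 1 1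
  · rw [hr.1, hr.2]
    exact good_equalRows _ _
  · by_cases hc : H 0 0 = H 0 1 ∧ H 1 0 = H 1 1
    · rw [← hc.1, ← hc.2]
      exact good_transpose (good_equalRows _ _)
    · exact good_mk _ _ _ _ hr hc

end Vale.Agent.Lib.P037
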