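import Vale.Agent.Lib.P037.Basic

/-!
# Filling lemmas

A frame is a set of pairs `(x, l)` of rows, `l` in a later block than `x` and close to `x`.
If no two rows of the frame contain a copy of `H` on the columns `S`, we replace the rows `x` by
nearby rows `y` with no copy at all among them.
-/

open Finset

namespace Vale.Agent.Lib.P037

variable {n : ℕ}

/-- All rows used by a frame. -/
def rowsOf (F : Finset (Fin n × Fin n)) : Finset (Fin n) := F.image Prod.fst ∪ F.image Prod.snd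

lemma fst_mem_rowsOf {F : Finset (Fin n × Fin n)} {w : Fin n × Fin n} (hw : w ∈ F) :
    w.1 ∈ rowsOf F := mem_union_left _ (mem_image_of_mem _ hw)

lemma snd_mem_rowsOf {F : Finset (Fin n × Fin n)} {w : Fin n × Fin n} (hw : w ∈ F) :
    w.2 ∈ rowsOf F := mem_union_right _ (mem_image_of_mem _ hw)

/-- The filling property of a pattern. -/
def FillProp (H : Fin 2 → Fin 2 → Bool) : Prop :=
  ∀ (n : ℕ) (A : Fin n → Fin n → Bool) (S : Finset (Fin n)) (F : Finset (Fin n × Fin n))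
    (blk : Fin n → ℕ) (τ : ℕ),
    Monotone blk → (∀ w ∈ F, blk w.1 < blk w.2) → (∀ w ∈ F, #{c ∈ S | A w.1 c ≠ A w.2 c} ≤ τ) →
    (∀ p ∈ rowsOf F, ∀ q ∈ rowsOf F, p < q → ∀ c₁ ∈ S, ∀ c₂ ∈ S, c₁ < c₂ →
      ¬ Pat H (A p) (A q) c₁ c₂) →
    ∃ y : Fin n × Fin n → Fin n → Bool,
      (∀ w ∈ F, #{c ∈ S | y w c ≠ A w.1 c} ≤ #{w' ∈ F | blk w'.1 = blk w.1} * τ) ∧
      ∀ w ∈ F, ∀ w' ∈ F, blk w.1 ≤ blk w'.1 → ∀ c₁ ∈ S, ∀ c₂ ∈ S, c₁ < c₂ →
        ¬ Pat H (y w) (y w') c₁ c₂

lemma lt_of_blk_lt {blk : Fin n → ℕ} (hmono : Monotone blk) {p q : Fin n} (h : blk p < blk q) :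
    p < q := by
  by_contra hcon
  exact absurd (hmono (not_lt.mp hcon)) (not_le.mpr h)

/-- The pattern `X = [[1,0],[0,1]]`. -/
def patX : Fin 2 → Fin 2 → Bool := ![![true, false], ![false, true]]

/-- The pattern `T = [[1,1],[1,0]]`. -/
def patT : Fin 2 → Fin 2 → Bool := ![![true, true], ![true, false]]

lemma pat_patX {u v : Fin n → Bool} {c₁ c₂ : Fin n} :
    Pat patX u v c₁ c₂ ↔ u c₁ = true ∧ u c₂ = false ∧ v c₁ = false ∧ v c₂ = true := by
  simp [Pat, patX]

lemma pat_patT {u v : Fin n → Bool} {c₁ c₂ : Fin n} :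
    Pat patT u v c₁ c₂ ↔ u c₁ = true ∧ u c₂ = true ∧ v c₁ = true ∧ v c₂ = false := by
  simp [Pat, patT]

section X

variable (A : Fin n → Fin n → Bool) (S : Finset (Fin n)) (F : Finset (Fin n × Fin n))
  (blk : Fin n → ℕ) (τ : ℕ)

/-- Columns where `u` has a one and `v` a zero. -/
def aSet (u v : Fin n → Bool) : Finset (Fin n) := {c ∈ S | u c = true ∧ v c = false}

variable {A S F blk τ}

lemma small_of_above (hmono : Monotone blk) (hbl : ∀ w ∈ F, blk w.1 < blk w.2)
    (hτ : ∀ w ∈ F, #{c ∈ S | A w.1 c ≠ A w.2 c} ≤ τ)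
    (hfree : ∀ p ∈ rowsOf F, ∀ q ∈ rowsOf F, p < q → ∀ c₁ ∈ S, ∀ c₂ ∈ S, c₁ < c₂ →
      ¬ Pat patX (A p) (A q) c₁ c₂)
    {u v : Fin n × Fin n} (hu : u ∈ F) (hv : v ∈ F) (hb : blk u.1 = blk v.1) (hlt : u.1 < v.1) :
    #(aSet S (A u.1) (A v.1)) ≤ τ ∨ #(aSet S (A v.1) (A u.1)) ≤ τ := by
  have hΔ := hτ u hu
  by_cases h1 : aSet S (A u.1) (A v.1) ⊆ {c ∈ S | A u.1 c ≠ A u.2 c}
  · left
    exact le_trans (card_le_card h1) hΔ
  · right
    refine le_trans (card_le_card ?_) hΔ
    obtain ⟨c', hc', hc'Δ⟩ := not_subset.mp h1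
    simp only [aSet, mem_filter] at hc'
    have hl' : A u.2 c' = true := by
      by_contra hne
      apply hc'Δ
      simp only [mem_filter]
      refine ⟨hc'.1, ?_⟩
      rw [hc'.2.1]
      exact fun h => hne h.symm
    intro c hc
    simp only [aSet, mem_filter] at hc
    simp only [mem_filter]
    refine ⟨hc.1, ?_⟩
    intro hlc
    have hlc' : A u.2 c = false := by rw [← hlc]; exact hc.2.2
    rcases lt_trichotomy c c' with hcc | hcc | hcc
    · -- copy of X in (v, l_u)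
      have hvl : v.1 < u.2 := lt_of_blk_lt hmono (by rw [← hb]; exact hbl u hu)
      refine hfree v.1 (fst_mem_rowsOf hv) u.2 (snd_mem_rowsOf hu) hvl c hc.1 c' hc'.1 hcc ?_
      exact pat_patX.mpr ⟨hc.2.1, hc'.2.2, hlc', hl'⟩
    · subst hcc
      rw [hc.2.1] at hc'
      simp at hc'
    · refine hfree u.1 (fst_mem_rowsOf hu) v.1 (fst_mem_rowsOf hv) hlt c' hc'.1 c hc.1 hcc ?_
      exact pat_patX.mpr ⟨hc'.2.1, hc.2.2, hc'.2.2, hc.2.1⟩

lemma small_aSet (hmono : Monotone blk) (hbl : ∀ w ∈ F, blk w.1 < blk w.2)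
    (hτ : ∀ w ∈ F, #{c ∈ S | A w.1 c ≠ A w.2 c} ≤ τ)
    (hfree : ∀ p ∈ rowsOf F, ∀ q ∈ rowsOf F, p < q → ∀ c₁ ∈ S, ∀ c₂ ∈ S, c₁ < c₂ →
      ¬ Pat patX (A p) (A q) c₁ c₂)
    {u v : Fin n × Fin n} (hu : u ∈ F) (hv : v ∈ F) (hb : blk u.1 = blk v.1)
    (hσ : #{c ∈ S | A u.1 c = true} ≤ #{c ∈ S | A v.1 c = true}) :
    #(aSet S (A u.1) (A v.1)) ≤ τ := by
  classical
  have hab : #(aSet S (A u.1) (A v.1)) ≤ #(aSet S (A v.1) (A u.1)) := by
    have e1 : #{c ∈ S | A u.1 c = true} =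
        #{c ∈ S | A u.1 c = true ∧ A v.1 c = true} + #(aSet S (A u.1) (A v.1)) := by
      rw [← card_union_of_disjoint]
      · congr 1
        ext c
        simp only [aSet, mem_filter, mem_union]
        cases hc : A v.1 c <;> simp
      · rw [disjoint_left]
        intro c hc hc'
        simp only [aSet, mem_filter] at hc hc'
        rw [hc.2.2] at hc'
        simp at hc'
    have e2 : #{c ∈ S | A v.1 c = true} =
        #{c ∈ S | A u.1 c = true ∧ A v.1 c = true} + #(aSet S (A v.1) (A u.1)) := by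
      rw [← card_union_of_disjoint]
      · congr 1
        ext c
        simp only [aSet, mem_filter, mem_union]
        cases hc : A u.1 c <;> simp
      · rw [disjoint_left]
        intro c hc hc'
        simp only [aSet, mem_filter] at hc hc'
        rw [hc.2.1] at hc'
        simp at hc'
    omega
  rcases lt_trichotomy u.1 v.1 with hlt | heq | hgt
  · rcases small_of_above hmono hbl hτ hfree hu hv hb hlt with h | h
    · exact h
    · exact le_trans hab h
  · have : aSet S (A u.1) (A v.1) = ∅ := by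
      apply filter_eq_empty_iff.mpr
      intro c _ hc
      rw [heq] at hc
      rw [hc.1] at hc
      simp at hc
    rw [this]; simp
  · rcases small_of_above hmono hbl hτ hfree hv hu hb.symm hgt with h | h
    · exact le_trans hab h
    · exact h

end X

/-- The filling property holds for `X`. -/
theorem fill_patX : FillProp patX := by
  classical
  intro n A S F blk τ hmono hbl hτ hfree
  set σ : Fin n × Fin n → ℕ := fun w => #{c ∈ S | A w.1 c = true} with hσ
  refine ⟨fun w c => decide (∃ w' ∈ F, blk w'.1 = blk w.1 ∧ σ w' ≤ σ w ∧ A w'.1 c = true), ?_, ?_⟩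
  · intro w hw
    set I := ({w' ∈ F | blk w'.1 = blk w.1 ∧ σ w' ≤ σ w} : Finset (Fin n × Fin n)) with hI
    have hsub : ({c ∈ S | decide (∃ w' ∈ F, blk w'.1 = blk w.1 ∧ σ w' ≤ σ w ∧ A w'.1 c = true) ≠
        A w.1 c} : Finset (Fin n)) ⊆ I.biUnion (fun w' => aSet S (A w'.1) (A w.1)) := by
      intro c hc
      simp only [mem_filter] at hc
      obtain ⟨hcS, hne⟩ := hc
      cases hx : A w.1 c with
      | true =>
        exfalso
        rw [hx] at hne
        apply hne
        simp only [decide_eq_true_eq]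
        exact ⟨w, hw, rfl, le_refl _, hx⟩
      | false =>
        rw [hx] at hne
        have hex : ∃ w' ∈ F, blk w'.1 = blk w.1 ∧ σ w' ≤ σ w ∧ A w'.1 c = true := by
          by_contra hno
          exact hne (by simpa using hno)
        obtain ⟨w', hw', hb, hs, hA⟩ := hex
        simp only [mem_biUnion]
        refine ⟨w', ?_, ?_⟩
        · simp only [hI, mem_filter]
          exact ⟨hw', hb, hs⟩
        · simp only [aSet, mem_filter]
          exact ⟨hcS, hA, hx⟩
    refine le_trans (card_le_card hsub) ?_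
    refine le_trans (card_biUnion_le_card_mul _ _ τ ?_) ?_
    · intro w' hw'
      simp only [hI, mem_filter] at hw'
      exact small_aSet hmono hbl hτ hfree hw'.1 hw hw'.2.1 hw'.2.2
    · apply Nat.mul_le_mul_right
      apply card_le_card
      intro w' hw'
      simp only [hI, mem_filter] at hw'
      simp only [mem_filter]
      exact ⟨hw'.1, hw'.2.1⟩
  · intro w hw w' hw' hb c₁ hc₁ c₂ hc₂ hc hpat
    rw [pat_patX] at hpat
    obtain ⟨h1, h2, h3, h4⟩ := hpat
    simp only [decide_eq_true_eq, decide_eq_false_iff_not] at h1 h2 h3 h4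
    rcases lt_or_eq_of_le hb with hlt | heq
    · obtain ⟨v, hv, hvb, hvs, hvA⟩ := h1
      obtain ⟨v', hv', hvb', hvs', hvA'⟩ := h4
      have hv2 : A v.1 c₂ = false := by
        by_contra hne
        exact h2 ⟨v, hv, hvb, hvs, by simpa using hne⟩
      have hv1' : A v'.1 c₁ = false := by
        by_contra hne
        exact h3 ⟨v', hv', hvb', hvs', by simpa using hne⟩
      have hlt' : v.1 < v'.1 := lt_of_blk_lt hmono (by rw [hvb, hvb']; exact hlt)
      exact hfree v.1 (fst_mem_rowsOf hv) v'.1 (fst_mem_rowsOf hv') hlt' c₁ hc₁ c₂ hc₂ hc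
        (pat_patX.mpr ⟨hvA, hv2, hv1', hvA'⟩)
    · rcases le_total (σ w) (σ w') with hs | hs
      · obtain ⟨v, hv, hvb, hvs, hvA⟩ := h1
        exact h3 ⟨v, hv, hvb.trans heq, hvs.trans hs, hvA⟩
      · obtain ⟨v', hv', hvb', hvs', hvA'⟩ := h4
        exact h2 ⟨v', hv', hvb'.trans heq.symm, hvs'.trans hs, hvA'⟩

end Vale.Agent.Lib.P037
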