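import Vale.Agent.Lib.P037.Fill

/-!
# The filling lemma for the pattern `T = [[1,1],[1,0]]`
-/

open Finset

namespace Vale.Agent.Lib.P037

variable {n : ℕ}

/-- Shadow of a row `b`: the rows reached from rows meeting `b` before the column `c₂`, moving to
rows above along common columns before `c₂`. -/
inductive Shadow (A : Fin n → Fin n → Bool) (S R : Finset (Fin n)) (b : Fin n → Bool) (c₂ : Fin n) :
    Fin n → Prop
  | base {w : Fin n} (hw : w ∈ R) (d : Fin n) (hd : d ∈ S) (hdc : d < c₂) (h1 : A w d = true)
      (h2 : b d = true) : Shadow A S R b c₂ w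
  | step {w wp : Fin n} (hw : w ∈ R) (hp : Shadow A S R b c₂ wp) (hlt : w < wp) (e : Fin n)
      (he : e ∈ S) (hec : e < c₂) (h1 : A w e = true) (h2 : A wp e = true) : Shadow A S R b c₂ w

section Shadow

variable {A : Fin n → Fin n → Bool} {S R : Finset (Fin n)} {b : Fin n → Bool} {c₂ : Fin n}

lemma Shadow.mem {w : Fin n} (h : Shadow A S R b c₂ w) : w ∈ R := by
  cases h with
  | base hw _ _ _ _ _ => exact hw
  | step hw _ _ _ _ _ _ _ => exact hw

lemma shadow_top (htf : ∀ p ∈ R, ∀ q ∈ R, p < q → ∀ e ∈ S, ∀ c ∈ S, e < c →
      A p e = true → A p c = true → A q e = true → A q c = true)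
    (htb : ∀ p ∈ R, ∀ e ∈ S, ∀ c ∈ S, e < c →
      A p e = true → A p c = true → b e = true → b c = true)
    (hc₂ : c₂ ∈ S) {w : Fin n} (h : Shadow A S R b c₂ w) (hw : A w c₂ = true) : b c₂ = true := by
  induction h with
  | base hw' d hd hdc h1 h2 => exact htb _ hw' d hd c₂ hc₂ hdc h1 hw h2
  | step hw' hp hlt e he hec h1 h2 ih =>
    exact ih (htf _ hw' _ hp.mem hlt e he c₂ hc₂ hec h1 hw h2)

lemma shadow_adj (htf : ∀ p ∈ R, ∀ q ∈ R, p < q → ∀ e ∈ S, ∀ c ∈ S, e < c →
      A p e = true → A p c = true → A q e = true → A q c = true)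
    (htb : ∀ p ∈ R, ∀ e ∈ S, ∀ c ∈ S, e < c →
      A p e = true → A p c = true → b e = true → b c = true)
    {w : Fin n} (h : Shadow A S R b c₂ w) :
    ∀ w' ∈ R, ∀ e ∈ S, e < c₂ → A w e = true → A w' e = true → Shadow A S R b c₂ w' := by
  induction h with
  | @base w hw d hd hdc h1 h2 =>
    intro w' hw' e he hec h3 h4
    rcases lt_trichotomy w w' with hww | hww | hww
    · rcases lt_trichotomy d e with hde | hde | hde
      · exact .base hw' e he hec h4 (htb _ hw d hd e he hde h1 h3 h2)
      · subst hde
        exact .base hw' d hd hdc h4 h2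
      · exact .base hw' d hd hdc (htf _ hw _ hw' hww e he d hd hde h3 h1 h4) h2
    · subst hww
      exact .base hw d hd hdc h1 h2
    · rcases lt_trichotomy d e with hde | hde | hde
      · exact .base hw' e he hec h4 (htb _ hw d hd e he hde h1 h3 h2)
      · subst hde
        exact .base hw' d hd hdc h4 h2
      · exact .step hw' (.base hw d hd hdc h1 h2) hww e he hec h4 h3
  | @step w wp hw hp hlt f hf hfc h1 h2 ih =>
    intro w' hw' e he hec h3 h4
    rcases lt_trichotomy w w' with hww | hww | hww
    · rcases lt_trichotomy e f with hef | hef | hef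
      · -- `w'` and `wp` have the common column `f`
        have h5 : A w' f = true := htf _ hw _ hw' hww e he f hf hef h3 h1 h4
        exact ih w' hw' f hf hfc h2 h5
      · subst hef
        exact ih w' hw' e he hec h2 h4
      · have h5 : A wp e = true := htf _ hw _ hp.mem hlt f hf e he hef h1 h3 h2
        exact ih w' hw' e he hec h5 h4
    · subst hww
      exact .step hw hp hlt f hf hfc h1 h2
    · exact .step hw' (.step hw hp hlt f hf hfc h1 h2) hww e he hec h4 h3

end Shadow

section Fill

variable (A : Fin n → Fin n → Bool) (S : Finset (Fin n)) (F : Finset (Fin n × Fin n))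
  (blk : Fin n → ℕ)

/-- Meet of the two rows of a frame element. -/
def zT (w : Fin n × Fin n) (c : Fin n) : Bool := A w.1 c && A w.2 c

/-- Two frame elements of one block with a common one of `zT` before the column `c`. -/
def GT (c : Fin n) (u v : Fin n × Fin n) : Prop :=
  u ∈ F ∧ v ∈ F ∧ blk u.1 = blk v.1 ∧ ∃ e ∈ S, e < c ∧ zT A u e = true ∧ zT A v e = true

/-- Connectivity before the column `c`. -/
def ConnT (c : Fin n) : Fin n × Fin n → Fin n × Fin n → Prop :=
  Relation.ReflTransGen (GT A S F blk c)

variable {A S F blk}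

lemma GT.symm {c : Fin n} {u v : Fin n × Fin n} (h : GT A S F blk c u v) : GT A S F blk c v u := by
  obtain ⟨h1, h2, h3, e, he, hec, h4, h5⟩ := h
  exact ⟨h2, h1, h3.symm, e, he, hec, h5, h4⟩

lemma ConnT.symm {c : Fin n} {u v : Fin n × Fin n} (h : ConnT A S F blk c u v) :
    ConnT A S F blk c v u := by
  induction h with
  | refl => exact Relation.ReflTransGen.refl
  | tail _ hstep ih => exact Relation.ReflTransGen.head (GT.symm hstep) ih

lemma ConnT.mono {c c' : Fin n} (hc : c ≤ c') {u v : Fin n × Fin n} (h : ConnT A S F blk c u v) :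
    ConnT A S F blk c' u v := by
  induction h with
  | refl => exact Relation.ReflTransGen.refl
  | tail _ hstep ih =>
    obtain ⟨h1, h2, h3, e, he, hec, h4, h5⟩ := hstep
    exact Relation.ReflTransGen.tail ih ⟨h1, h2, h3, e, he, hec.trans_le hc, h4, h5⟩

lemma ConnT.blk_eq {c : Fin n} {u v : Fin n × Fin n} (h : ConnT A S F blk c u v) :
    blk u.1 = blk v.1 := by
  induction h with
  | refl => rfl
  | tail _ hstep ih => exact ih.trans hstep.2.2.1

lemma ConnT.mem {c : Fin n} {u v : Fin n × Fin n} (h : ConnT A S F blk c u v) (hu : u ∈ F) :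
    v ∈ F := by
  induction h with
  | refl => exact hu
  | tail _ hstep _ => exact hstep.2.1

lemma zT_eq_true {w : Fin n × Fin n} {c : Fin n} :
    zT A w c = true ↔ A w.1 c = true ∧ A w.2 c = true := by
  simp [zT]

end Fill

/-- The filling property holds for `T`. -/
theorem fill_patT : FillProp patT := by
  classical
  intro n A S F blk τ hmono hbl hτ hfree
  have hfree' : ∀ p ∈ rowsOf F, ∀ q ∈ rowsOf F, p < q → ∀ e ∈ S, ∀ c ∈ S, e < c →
      A p e = true → A p c = true → A q e = true → A q c = true := by
    intro p hp q hq hpq e he c hc hec h1 h2 h3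
    by_contra hne
    exact hfree p hp q hq hpq e he c hc hec (pat_patT.mpr ⟨h1, h2, h3, by simpa using hne⟩)
  refine ⟨fun w c => decide (∃ w' ∈ F, ConnT A S F blk c w' w ∧ zT A w' c = true), ?_, ?_⟩
  · -- error bound
    intro w hw
    set I := ({w' ∈ F | blk w'.1 = blk w.1} : Finset (Fin n × Fin n)) with hI
    have hsub : ({c ∈ S | decide (∃ w' ∈ F, ConnT A S F blk c w' w ∧ zT A w' c = true) ≠
        A w.1 c} : Finset (Fin n)) ⊆ I.biUnion (fun u => {c ∈ S | A u.1 c ≠ A u.2 c}) := by
      intro c hc
      simp only [mem_filter] at hc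
      obtain ⟨hcS, hne⟩ := hc
      simp only [mem_biUnion, mem_filter]
      have hwI : w ∈ I := by simp [hI, hw]
      by_cases hz : zT A w c = true
      · exfalso
        rw [zT_eq_true] at hz
        apply hne
        rw [hz.1]
        simp only [decide_eq_true_eq]
        exact ⟨w, hw, Relation.ReflTransGen.refl, zT_eq_true.mpr hz⟩
      · cases hx : A w.1 c with
        | true =>
          refine ⟨w, hwI, hcS, ?_⟩
          rw [hx]
          intro hl
          exact hz (zT_eq_true.mpr ⟨hx, hl.symm⟩)
        | false =>
          rw [hx] at hne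
          have hex : ∃ w' ∈ F, ConnT A S F blk c w' w ∧ zT A w' c = true := by
            by_contra hno
            exact hne (by simpa using hno)
          obtain ⟨w', hw', hconn, hz'⟩ := hex
          -- walk from w' to w
          have key : ∀ v, ConnT A S F blk c v w → zT A v c = true →
              zT A w c = true ∨ ∃ u ∈ I, A u.1 c ≠ A u.2 c := by
            intro v hv
            induction hv using Relation.ReflTransGen.head_induction_on with
            | refl => exact fun h => Or.inl h
            | head hstep hrest ih =>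
              rename_i a a'
              intro hza
              obtain ⟨ha, ha', hb, e, he, hec, hze, hze'⟩ := hstep
              rw [zT_eq_true] at hza hze hze'
              have hlt : a.1 < a'.2 := lt_of_blk_lt hmono (by rw [hb]; exact hbl a' ha')
              have hl : A a'.2 c = true := hfree' a.1 (fst_mem_rowsOf ha) a'.2 (snd_mem_rowsOf ha')
                hlt e he c hcS hec hze.1 hza.1 hze'.2
              by_cases hx' : A a'.1 c = true
              · exact ih (zT_eq_true.mpr ⟨hx', hl⟩)
              · right
                refine ⟨a', ?_, ?_⟩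
                · simp only [hI, mem_filter]
                  exact ⟨ha', ConnT.blk_eq hrest⟩
                · rw [hl]; exact hx'
          rcases key w' hconn hz' with h | ⟨u, hu, hne'⟩
          · exact absurd h hz
          · exact ⟨u, hu, hcS, hne'⟩
    refine le_trans (card_le_card hsub) ?_
    refine card_biUnion_le_card_mul _ _ τ ?_
    intro u hu
    simp only [hI, mem_filter] at hu
    exact hτ u hu.1
  · -- no copy
    intro w hw w' hw' hb c₁ hc₁ c₂ hc₂ hc hpat
    rw [pat_patT] at hpat
    obtain ⟨h1, h2, h3, h4⟩ := hpat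
    simp only [decide_eq_true_eq, decide_eq_false_iff_not] at h1 h2 h3 h4
    obtain ⟨u, hu, huw, hzu⟩ := h1
    obtain ⟨v, hv, hvw, hzv⟩ := h2
    obtain ⟨s, hs, hsw, hzs⟩ := h3
    rcases lt_or_eq_of_le hb with hlt | heq
    · -- different blocks
      have hsw2 : ConnT A S F blk c₂ s w' := ConnT.mono hc.le hsw
      have hzs2 : zT A s c₂ = false := by
        by_contra hne
        exact h4 ⟨s, hs, hsw2, by simpa using hne⟩
      have hzs1 := zT_eq_true.mp hzs
      -- the low row
      obtain ⟨row, hrow, hrowblk, hb1, hb2⟩ : ∃ row ∈ rowsOf F, blk w.1 < blk row ∧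
          A row c₁ = true ∧ A row c₂ = false := by
        have hsb : blk s.1 = blk w'.1 := hsw.blk_eq
        by_cases hx : A s.1 c₂ = true
        · have hl : A s.2 c₂ = false := by
            by_contra hne
            have : zT A s c₂ = true := zT_eq_true.mpr ⟨hx, by simpa using hne⟩
            rw [this] at hzs2
            simp at hzs2
          exact ⟨s.2, snd_mem_rowsOf hs, by have := hbl s hs; omega, hzs1.2, hl⟩
        · exact ⟨s.1, fst_mem_rowsOf hs, by omega, hzs1.1, by simpa using hx⟩
      set R : Finset (Fin n) := (F.filter (fun a => blk a.1 = blk w.1)).image Prod.fst with hR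
      have hRrows : ∀ p ∈ R, p ∈ rowsOf F ∧ blk p = blk w.1 := by
        intro p hp
        rw [hR, mem_image] at hp
        obtain ⟨a, ha, rfl⟩ := hp
        rw [mem_filter] at ha
        exact ⟨fst_mem_rowsOf ha.1, ha.2⟩
      have htf : ∀ p ∈ R, ∀ q ∈ R, p < q → ∀ e ∈ S, ∀ c ∈ S, e < c →
          A p e = true → A p c = true → A q e = true → A q c = true := by
        intro p hp q hq hpq
        exact hfree' p (hRrows p hp).1 q (hRrows q hq).1 hpq
      have htb : ∀ p ∈ R, ∀ e ∈ S, ∀ c ∈ S, e < c →
          A p e = true → A p c = true → A row e = true → A row c = true := by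
        intro p hp
        refine hfree' p (hRrows p hp).1 row hrow ?_
        exact lt_of_blk_lt hmono (by rw [(hRrows p hp).2]; exact hrowblk)
      have hubl : blk u.1 = blk w.1 := huw.blk_eq
      have hvbl : blk v.1 = blk w.1 := hvw.blk_eq
      have huR : u.1 ∈ R := by
        rw [hR, mem_image]
        exact ⟨u, mem_filter.mpr ⟨hu, hubl⟩, rfl⟩
      have hzu1 := zT_eq_true.mp hzu
      have hzv1 := zT_eq_true.mp hzv
      -- `u` is activated
      have hshadow : Shadow A S R (A row) c₂ u.1 := .base huR c₁ hc₁ hc hzu1.1 hb1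
      -- propagate along the path from `u` to `v`
      have hconn : ConnT A S F blk c₂ u v :=
        (ConnT.mono hc.le huw).trans (ConnT.symm hvw)
      have hprop : Shadow A S R (A row) c₂ v.1 := by
        have key : ∀ a, ConnT A S F blk c₂ u a → Shadow A S R (A row) c₂ a.1 := by
          intro a ha
          induction ha with
          | refl => exact hshadow
          | @tail a a' hrest hstep ih =>
            obtain ⟨h5, h6, h7, e, he, hec, hz5, hz6⟩ := hstep
            rw [zT_eq_true] at hz5 hz6
            have ha'R : a'.1 ∈ R := by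
              rw [hR, mem_image]
              refine ⟨a', mem_filter.mpr ⟨h6, ?_⟩, rfl⟩
              rw [← h7, ← ConnT.blk_eq hrest]
              exact hubl
            exact shadow_adj htf htb ih a'.1 ha'R e he hec hz5.1 hz6.1
        exact key v hconn
      have hfinal := shadow_top htf htb hc₂ hprop hzv1.1
      rw [hb2] at hfinal
      simp at hfinal
    · -- same block
      have hus : GT A S F blk c₂ u s := by
        refine ⟨hu, hs, ?_, c₁, hc₁, hc, hzu, hzs⟩
        rw [huw.blk_eq, hsw.blk_eq]
        exact heq
      have hconn : ConnT A S F blk c₂ v w' := by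
        have h1 : ConnT A S F blk c₂ v w := hvw
        have h2 : ConnT A S F blk c₂ w u := ConnT.symm (ConnT.mono hc.le huw)
        have h3 : ConnT A S F blk c₂ u s := Relation.ReflTransGen.single hus
        have h4' : ConnT A S F blk c₂ s w' := ConnT.mono hc.le hsw
        exact h1.trans (h2.trans (h3.trans h4'))
      exact h4 ⟨v, hv, hconn, hzv⟩

end Vale.Agent.Lib.P037
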