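import Vale.Agent.Lib.P037.Packing
import Vale.Agent.Lib.P037.Fill

/-!
# Heavy pairs, lonely rows and frames
-/

open Finset

namespace Vale.Agent.Lib.P037

variable {n : ℕ}

section

variable (H : Fin 2 → Fin 2 → Bool) (A : Fin n → Fin n → Bool) (h : ℕ)

/-- A pair of rows with many copies. -/
def Hv (p q : Fin n) : Prop :=
  (p < q ∧ h ^ 2 < cop H (A p) (A q)) ∨ (q < p ∧ h ^ 2 < cop H (A q) (A p))

instance : DecidableRel (Hv H A h) := fun p q => by
  unfold Hv; infer_instance

variable {H A h}

lemma Hv.symm {p q : Fin n} (hv : Hv H A h p q) : Hv H A h q p := Or.symm hv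

lemma Hv.irrefl (p : Fin n) : ¬ Hv H A h p p := by
  simp [Hv]

lemma cop_le_of_not_Hv {p q : Fin n} (hv : ¬ Hv H A h p q) (hpq : p < q) :
    cop H (A p) (A q) ≤ h ^ 2 := by
  by_contra hcon
  exact hv (Or.inl ⟨hpq, by omega⟩)

variable (H A h)

/-- Heavy neighbours of a row. -/
def nbrs (p : Fin n) : Finset (Fin n) := {q | Hv H A h p q}

variable (d0 s k bc bt : ℕ)

/-- Rows with few heavy neighbours. -/
def Wset : Finset (Fin n) := {r | #(nbrs H A h r) ≤ d0}

/-- Rows of the working set in a later block and close to `r`. -/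
def closeLater (r : Fin n) : Finset (Fin n) :=
  {r' ∈ Wset H A h d0 | r.val / s < r'.val / s ∧ 2 ^ bt * ham (A r) (A r') < n}

/-- Rows of the working set without many close rows in later blocks. -/
def Lone : Finset (Fin n) := {r ∈ Wset H A h d0 | #(closeLater H A h d0 s bt r) < k}

end

lemma card_same_block (s : ℕ) (hs : 0 < s) (r : Fin n) :
    #{r' : Fin n | r'.val / s = r.val / s} ≤ s := by
  calc #{r' : Fin n | r'.val / s = r.val / s} ≤ #(range s) := by
        apply card_le_card_of_injOn (fun r' => r'.val % s)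
        · intro r' _
          simp only [coe_range, Set.mem_Iio]
          exact Nat.mod_lt _ hs
        · intro a ha b hb hab
          simp only [coe_filter, mem_univ, true_and, Set.mem_ofPred_eq] at ha hb
          apply Fin.ext
          have h1 := Nat.div_add_mod a.val s
          have h2 := Nat.div_add_mod b.val s
          dsimp only at hab
          rw [ha, hab] at h1
          rw [hb] at h2
          omega
    _ = s := card_range s

/-- Lonely rows are few. -/
theorem card_Lone {H : Fin 2 → Fin 2 → Bool} (hH : HasPair H) (A : Fin n → Fin n → Bool)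
    (h d0 s k bt : ℕ) (hn : 0 < n) (hs : 0 < s)
    (hsize : packM bt ^ 2 * (2 * h + 1) * 2 ^ (bt + 1) ≤ n) :
    #(Lone H A h d0 s k bt) ≤ packM bt * (s + d0 + k + 1) := by
  classical
  set R : Fin n → Fin n → Prop :=
    fun p q => p.val / s = q.val / s ∨ Hv H A h p q ∨ 2 ^ bt * ham (A p) (A q) < n with hR
  have : DecidableRel R := fun p q => by rw [hR]; infer_instance
  have hdeg : ∀ v ∈ Lone H A h d0 s k bt,
      #{v' ∈ Lone H A h d0 s k bt | v < v' ∧ R v v'} ≤ s + d0 + k := by
    intro v hv
    have hvW : v ∈ Wset H A h d0 := (mem_filter.mp hv).1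
    have hvL : #(closeLater H A h d0 s bt v) < k := (mem_filter.mp hv).2
    have hsub : ({v' ∈ Lone H A h d0 s k bt | v < v' ∧ R v v'} : Finset (Fin n)) ⊆
        univ.filter (fun r' : Fin n => r'.val / s = v.val / s) ∪
          (nbrs H A h v ∪ closeLater H A h d0 s bt v) := by
      intro x hx
      simp only [mem_filter] at hx
      obtain ⟨hxL, hvx, hRx⟩ := hx
      simp only [mem_union, mem_filter, mem_univ, true_and]
      rcases hRx with h1 | h1 | h1
      · left; exact h1.symm
      · right; left; exact mem_filter.mpr ⟨mem_univ _, h1⟩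
      · by_cases hb : x.val / s = v.val / s
        · left; exact hb
        · right; right
          refine mem_filter.mpr ⟨(mem_filter.mp hxL).1, ?_, h1⟩
          have : v.val / s ≤ x.val / s := Nat.div_le_div_right (le_of_lt hvx)
          omega
    refine le_trans (card_le_card hsub) (le_trans (card_union_le _ _) ?_)
    have h1 := card_same_block s hs v
    have h2 := card_union_le (nbrs H A h v) (closeLater H A h d0 s bt v)
    have h3 : #(nbrs H A h v) ≤ d0 := (mem_filter.mp hvW).2
    omega
  obtain ⟨T, hTsub, hTind, hTcard⟩ := exists_independent R (s + d0 + k) _ hdeg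
  have hTpack : #T < packM bt := by
    refine packing hH A T bt h hn ?_ ?_ hsize
    · intro p hp q hq hpq
      rcases lt_or_gt_of_ne hpq with hlt | hlt
      · have := hTind p hp q hq hlt
        simp only [hR, not_or, not_lt] at this
        exact this.2.2
      · have := hTind q hq p hp hlt
        simp only [hR, not_or, not_lt] at this
        rw [ham_comm]
        exact this.2.2
    · intro p hp q hq hlt
      have := hTind p hp q hq hlt
      simp only [hR, not_or] at this
      exact cop_le_of_not_Hv this.2.1 hlt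
  calc #(Lone H A h d0 s k bt) ≤ #T * (s + d0 + k + 1) := hTcard
    _ ≤ packM bt * (s + d0 + k + 1) := Nat.mul_le_mul_right _ hTpack.le

/-- A frame: pairs `(x, l)` of rows of the working set, `l` close to `x` and in a later block;
the `x` of one block are pairwise far; all the rows are pairwise not heavy. -/
structure ValidFrame (H : Fin 2 → Fin 2 → Bool) (A : Fin n → Fin n → Bool) (h d0 s bc bt : ℕ)
    (F : Finset (Fin n × Fin n)) : Prop where
  mem_W : ∀ w ∈ F, w.1 ∈ Wset H A h d0 ∧ w.2 ∈ Wset H A h d0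
  blk_lt : ∀ w ∈ F, w.1.val / s < w.2.val / s
  close : ∀ w ∈ F, 2 ^ bt * ham (A w.1) (A w.2) < n
  far : ∀ w ∈ F, ∀ w' ∈ F, w ≠ w' → w.1.val / s = w'.1.val / s →
    n ≤ 2 ^ bc * ham (A w.1) (A w'.1)
  nonheavy : ∀ p ∈ rowsOf F, ∀ q ∈ rowsOf F, ¬ Hv H A h p q

lemma card_rowsOf_le (F : Finset (Fin n × Fin n)) : #(rowsOf F) ≤ 2 * #F := by
  unfold rowsOf
  refine le_trans (card_union_le _ _) ?_
  have h1 : #(F.image Prod.fst) ≤ #F := card_image_le
  have h2 : #(F.image Prod.snd) ≤ #F := card_image_le
  omega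

lemma mem_rowsOf_insert {F : Finset (Fin n × Fin n)} {r l p : Fin n} :
    p ∈ rowsOf (insert (r, l) F) ↔ p ∈ rowsOf F ∨ p = r ∨ p = l := by
  simp only [rowsOf, mem_union, mem_image, mem_insert, Prod.exists]
  constructor
  · rintro (⟨a, b, hab, rfl⟩ | ⟨a, b, hab, rfl⟩)
    · rcases hab with hab | hab
      · right; left; exact (Prod.ext_iff.mp hab).1
      · left; left; exact ⟨a, b, hab, rfl⟩
    · rcases hab with hab | hab
      · right; right; exact (Prod.ext_iff.mp hab).2
      · left; right; exact ⟨a, b, hab, rfl⟩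
  · rintro ((⟨a, b, hab, rfl⟩ | ⟨a, b, hab, rfl⟩) | rfl | rfl)
    · left; exact ⟨a, b, Or.inr hab, rfl⟩
    · right; exact ⟨a, b, Or.inr hab, rfl⟩
    · left; exact ⟨_, l, Or.inl rfl, rfl⟩
    · right; exact ⟨r, _, Or.inl rfl, rfl⟩

/-- Each block of a frame has few elements. -/
lemma frame_fiber {H : Fin 2 → Fin 2 → Bool} (hH : HasPair H) {A : Fin n → Fin n → Bool}
    {h d0 s bc bt : ℕ} {F : Finset (Fin n × Fin n)} (hF : ValidFrame H A h d0 s bc bt F)
    (hn : 0 < n) (hsize : packM bc ^ 2 * (2 * h + 1) * 2 ^ (bc + 1) ≤ n) (j : ℕ) :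
    #{w ∈ F | w.1.val / s = j} < packM bc := by
  classical
  set I : Finset (Fin n × Fin n) := {w ∈ F | w.1.val / s = j} with hI
  have hinj : Set.InjOn (Prod.fst : Fin n × Fin n → Fin n) (I : Set (Fin n × Fin n)) := by
    intro w hw w' hw' heq
    simp only [hI, coe_filter, Set.mem_ofPred_eq] at hw hw'
    by_contra hne
    have := hF.far w hw.1 w' hw'.1 hne (hw.2.trans hw'.2.symm)
    have heq' : w.1 = w'.1 := heq
    rw [← heq', ham_self] at this
    omega
  rw [← card_image_of_injOn hinj]
  refine packing hH A _ bc h hn ?_ ?_ hsize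
  · intro p hp q hq hpq
    rw [mem_image] at hp hq
    obtain ⟨w, hw, rfl⟩ := hp
    obtain ⟨w', hw', rfl⟩ := hq
    simp only [hI, mem_filter] at hw hw'
    refine hF.far w hw.1 w' hw'.1 ?_ (hw.2.trans hw'.2.symm)
    rintro rfl
    exact hpq rfl
  · intro p hp q hq hlt
    rw [mem_image] at hp hq
    obtain ⟨w, hw, rfl⟩ := hp
    obtain ⟨w', hw', rfl⟩ := hq
    simp only [hI, mem_filter] at hw hw'
    exact cop_le_of_not_Hv (hF.nonheavy _ (fst_mem_rowsOf hw.1) _ (fst_mem_rowsOf hw'.1)) hlt

/-- A frame has few elements. -/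
lemma frame_card {H : Fin 2 → Fin 2 → Bool} (hH : HasPair H) {A : Fin n → Fin n → Bool}
    {h d0 s bc bt m : ℕ} {F : Finset (Fin n × Fin n)} (hF : ValidFrame H A h d0 s bc bt F)
    (hn : 0 < n) (hsize : packM bc ^ 2 * (2 * h + 1) * 2 ^ (bc + 1) ≤ n)
    (hm : ∀ r : Fin n, r.val / s < m) :
    #F ≤ m * packM bc := by
  classical
  have hmaps : ∀ w ∈ F, (fun w : Fin n × Fin n => w.1.val / s) w ∈ range m := by
    intro w _
    exact mem_range.mpr (hm w.1)
  rw [card_eq_sum_card_fiberwise hmaps]
  calc ∑ j ∈ range m, #{w ∈ F | w.1.val / s = j} ≤ ∑ _j ∈ range m, packM bc :=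
        sum_le_sum (fun j _ => (frame_fiber hH hF hn hsize j).le)
    _ = m * packM bc := by simp

lemma validFrame_empty (H : Fin 2 → Fin 2 → Bool) (A : Fin n → Fin n → Bool) (h d0 s bc bt : ℕ) :
    ValidFrame H A h d0 s bc bt ∅ := by
  refine ⟨?_, ?_, ?_, ?_, ?_⟩ <;> simp [rowsOf]

lemma exists_max_frame (H : Fin 2 → Fin 2 → Bool) (A : Fin n → Fin n → Bool) (h d0 s bc bt : ℕ) :
    ∃ F, ValidFrame H A h d0 s bc bt F ∧ ∀ F', ValidFrame H A h d0 s bc bt F' → #F' ≤ #F := by
  classical
  have hne : (univ.filter (ValidFrame H A h d0 s bc bt)).Nonempty :=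
    ⟨∅, mem_filter.mpr ⟨mem_univ _, validFrame_empty H A h d0 s bc bt⟩⟩
  obtain ⟨F, hF, hmax⟩ := exists_max_image _ card hne
  refine ⟨F, (mem_filter.mp hF).2, fun F' hF' => hmax F' (mem_filter.mpr ⟨mem_univ _, hF'⟩)⟩

/-- Coverage: a row of the working set, not lonely and not heavy to the frame, is coarsely close to
a row of the frame in its block. -/
theorem frame_cover {H : Fin 2 → Fin 2 → Bool} {A : Fin n → Fin n → Bool} {h d0 s k bc bt : ℕ}
    {F : Finset (Fin n × Fin n)} (hF : ValidFrame H A h d0 s bc bt F)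
    (hmax : ∀ F', ValidFrame H A h d0 s bc bt F' → #F' ≤ #F) (hn : 0 < n)
    (hk : (2 * #F + 1) * d0 < k) {r : Fin n} (hrW : r ∈ Wset H A h d0)
    (hrL : r ∉ Lone H A h d0 s k bt) (hrH : ∀ p ∈ rowsOf F, ¬ Hv H A h p r) :
    ∃ w ∈ F, w.1.val / s = r.val / s ∧ 2 ^ bc * ham (A r) (A w.1) < n := by
  classical
  by_contra hcon
  push Not at hcon
  have hCL : k ≤ #(closeLater H A h d0 s bt r) := by
    by_contra hlt
    exact hrL (mem_filter.mpr ⟨hrW, by omega⟩)
  -- excluded rows
  set E : Finset (Fin n) := (insert r (rowsOf F)).biUnion (nbrs H A h) with hE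
  have hEcard : #E ≤ (2 * #F + 1) * d0 := by
    refine le_trans (card_biUnion_le_card_mul _ _ d0 ?_) ?_
    · intro p hp
      rw [mem_insert] at hp
      rcases hp with rfl | hp
      · exact (mem_filter.mp hrW).2
      · have hpW : p ∈ Wset H A h d0 := by
          simp only [rowsOf, mem_union, mem_image] at hp
          rcases hp with ⟨w, hw, rfl⟩ | ⟨w, hw, rfl⟩
          · exact (hF.mem_W w hw).1
          · exact (hF.mem_W w hw).2
        exact (mem_filter.mp hpW).2
    · apply Nat.mul_le_mul_right
      refine le_trans (card_insert_le _ _) ?_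
      have := card_rowsOf_le F
      omega
  obtain ⟨l, hlCL, hlE⟩ : ∃ l ∈ closeLater H A h d0 s bt r, l ∉ E := by
    by_contra hno
    push Not at hno
    have := card_le_card (fun x hx => hno x hx : closeLater H A h d0 s bt r ⊆ E)
    omega
  have hlW := (mem_filter.mp hlCL).1
  have hlb := (mem_filter.mp hlCL).2.1
  have hlc := (mem_filter.mp hlCL).2.2
  have hlH : ∀ p ∈ insert r (rowsOf F), ¬ Hv H A h p l := by
    intro p hp hv
    apply hlE
    rw [hE, mem_biUnion]
    exact ⟨p, hp, mem_filter.mpr ⟨mem_univ _, hv⟩⟩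
  have hnew : (r, l) ∉ F := by
    intro hmem
    have := hcon (r, l) hmem rfl
    rw [ham_self] at this
    omega
  have hvalid : ValidFrame H A h d0 s bc bt (insert (r, l) F) := by
    refine ⟨?_, ?_, ?_, ?_, ?_⟩
    · intro w hw
      rw [mem_insert] at hw
      rcases hw with rfl | hw
      · exact ⟨hrW, hlW⟩
      · exact hF.mem_W w hw
    · intro w hw
      rw [mem_insert] at hw
      rcases hw with rfl | hw
      · exact hlb
      · exact hF.blk_lt w hw
    · intro w hw
      rw [mem_insert] at hw
      rcases hw with rfl | hw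
      · exact hlc
      · exact hF.close w hw
    · intro w hw w' hw' hne hb
      rw [mem_insert] at hw hw'
      rcases hw with rfl | hw
      · rcases hw' with rfl | hw'
        · exact absurd rfl hne
        · exact hcon w' hw' hb.symm
      · rcases hw' with rfl | hw'
        · rw [ham_comm]
          exact hcon w hw hb
        · exact hF.far w hw w' hw' hne hb
    · intro p hp q hq
      rw [mem_rowsOf_insert] at hp hq
      rcases hp with hp | rfl | rfl
      · rcases hq with hq | rfl | rfl
        · exact hF.nonheavy p hp q hq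
        · exact hrH p hp
        · exact hlH p (mem_insert_of_mem hp)
      · rcases hq with hq | rfl | rfl
        · exact fun hv => hrH q hq hv.symm
        · exact Hv.irrefl _
        · exact hlH _ (mem_insert_self _ _)
      · rcases hq with hq | rfl | rfl
        · exact fun hv => hlH q (mem_insert_of_mem hq) hv.symm
        · exact fun hv => hlH _ (mem_insert_self _ _) hv.symm
        · exact Hv.irrefl _
  have := hmax _ hvalid
  rw [card_insert_of_notMem hnew] at this
  omega

end Vale.Agent.Lib.P037
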