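import Vale.Agent.Lib.P037.Basic

/-!
# Packing lemma: few pairwise far rows with few mutual copies

If two rows showing suitable traces on three columns contain `H` in either order, then a family of
rows, pairwise far in Hamming distance and with few mutual copies, has polynomially bounded size.
The proof deletes columns (deletion lemma), samples a bounded tuple of the remaining columns which
separates all pairs, and applies the Sauer-Shelah lemma.
-/

open Finset

namespace Vale.Agent.Lib.P037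

variable {n : ℕ}

/-- Two traces on three columns which force a copy of `H` whichever row is on top. -/
def HasPair (H : Fin 2 → Fin 2 → Bool) : Prop :=
  ∃ a b : Fin 3 → Bool, a ≠ b ∧
    (∃ i j : Fin 3, i < j ∧ a i = H 0 0 ∧ a j = H 0 1 ∧ b i = H 1 0 ∧ b j = H 1 1) ∧
    (∃ i j : Fin 3, i < j ∧ b i = H 0 0 ∧ b j = H 0 1 ∧ a i = H 1 0 ∧ a j = H 1 1)

/-- The packing bound. -/
def packM (b : ℕ) : ℕ := 2 ^ (4 * b + 17)

lemma pow_mul_bernoulli (x δ m : ℕ) : x ^ m * (x + m * δ) ≤ (x + δ) ^ m * x := by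
  induction m with
  | zero => simp
  | succ m ih =>
    have h1 : (x + δ) ^ (m + 1) * x = (x + δ) * ((x + δ) ^ m * x) := by ring
    have h2 : (x + δ) * (x ^ m * (x + m * δ)) ≤ (x + δ) * ((x + δ) ^ m * x) :=
      Nat.mul_le_mul_left _ ih
    have h3 : x ^ (m + 1) * (x + (m + 1) * δ) ≤ (x + δ) * (x ^ m * (x + m * δ)) := by
      have : (x + δ) * (x ^ m * (x + m * δ)) =
          x ^ (m + 1) * (x + (m + 1) * δ) + x ^ m * (m * δ ^ 2) := by ring
      omega
    rw [h1]
    exact le_trans h3 h2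

lemma two_mul_pow_le (x δ N m : ℕ) (hm0 : 0 < m) (hN : x + δ = N) (hm : N ≤ m * δ) :
    x ^ m * 2 ≤ N ^ m := by
  rcases Nat.eq_zero_or_pos x with rfl | hx
  · simp [zero_pow hm0.ne']
  · have h1 := pow_mul_bernoulli x δ m
    rw [hN] at h1
    have h2 : x ^ m * (2 * x) ≤ x ^ m * (x + m * δ) := by
      apply Nat.mul_le_mul_left
      omega
    have h3 : (x ^ m * 2) * x ≤ N ^ m * x := by
      calc (x ^ m * 2) * x = x ^ m * (2 * x) := by ring
        _ ≤ _ := h2
        _ ≤ _ := h1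
    exact Nat.le_of_mul_le_mul_right h3 hx

lemma exponent_bound (b : ℕ) : 8 * b + 35 ≤ 2 ^ (b + 7) := by
  induction b with
  | zero => norm_num
  | succ b ih =>
    have : 2 ^ (b + 1 + 7) = 2 * 2 ^ (b + 7) := by ring
    omega

lemma pow_sep_bound (x δ N b : ℕ) (hN : x + δ = N) (hm : N ≤ 2 ^ (b + 1) * δ) :
    x ^ (2 ^ (2 * b + 8)) * 2 ^ (8 * b + 35) ≤ N ^ (2 ^ (2 * b + 8)) := by
  have h1 := two_mul_pow_le x δ N (2 ^ (b + 1)) (by positivity) hN hm
  have h2 : (x ^ (2 ^ (b + 1)) * 2) ^ (2 ^ (b + 7)) ≤ (N ^ (2 ^ (b + 1))) ^ (2 ^ (b + 7)) :=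
    Nat.pow_le_pow_left h1 _
  have h3 : (2 : ℕ) ^ (b + 1) * 2 ^ (b + 7) = 2 ^ (2 * b + 8) := by ring
  rw [mul_pow, ← pow_mul, ← pow_mul, h3] at h2
  refine le_trans (Nat.mul_le_mul_left _ ?_) h2
  exact Nat.pow_le_pow_right (by norm_num) (exponent_bound b)

/-- Families of at most binary subsets are small. -/
lemma card_small_subsets (T : Finset (Fin n)) :
    #{S ∈ T.powerset | #S ≤ 2} ≤ 1 + #T + #T ^ 2 := by
  classical
  have hsub : ({S ∈ T.powerset | #S ≤ 2} : Finset (Finset (Fin n))) ⊆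
      powersetCard 0 T ∪ (powersetCard 1 T ∪ powersetCard 2 T) := by
    intro S hS
    simp only [mem_filter, mem_powerset] at hS
    simp only [mem_union, mem_powersetCard]
    have : #S = 0 ∨ #S = 1 ∨ #S = 2 := by omega
    rcases this with h | h | h
    · left; exact ⟨hS.1, h⟩
    · right; left; exact ⟨hS.1, h⟩
    · right; right; exact ⟨hS.1, h⟩
  refine le_trans (card_le_card hsub) (le_trans (card_union_le _ _) ?_)
  refine le_trans (Nat.add_le_add_left (card_union_le _ _) _) ?_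
  simp only [card_powersetCard, Nat.choose_zero_right, Nat.choose_one_right]
  have : (#T).choose 2 ≤ #T ^ 2 := by
    rw [Nat.choose_two_right]
    calc #T * (#T - 1) / 2 ≤ #T * (#T - 1) := Nat.div_le_self _ _
      _ ≤ #T * #T := Nat.mul_le_mul_left _ (Nat.sub_le _ _)
      _ = #T ^ 2 := by ring
  omega

/-- Sampling: a bounded tuple of columns separates all pairs of a small family of rows. -/
lemma exists_separating_tuple (A : Fin n → Fin n → Bool) (Z' C : Finset (Fin n)) (b : ℕ)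
    (hZ'card : #Z' = packM b) (hCpos : 0 < #C)
    (hSepcard : ∀ p ∈ Z', ∀ q ∈ Z', p ≠ q → #C ≤ 2 ^ (b + 1) * #{c ∈ C | A p c ≠ A q c}) :
    ∃ T : Fin (2 ^ (2 * b + 8)) → Fin n, (∀ i, T i ∈ C) ∧
      ∀ p ∈ Z', ∀ q ∈ Z', p ≠ q → ∃ i, A p (T i) ≠ A q (T i) := by
  classical
  set Sep : Fin n → Fin n → Finset (Fin n) := fun p q => {c ∈ C | A p c ≠ A q c} with hSep
  set t : ℕ := 2 ^ (2 * b + 8) with ht
  set G : Finset (Fin t → Fin n) := Fintype.piFinset (fun _ => C) with hG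
  have hGcard : #G = #C ^ t := by
    rw [hG, Fintype.card_piFinset]; simp
  set Bad : Fin n × Fin n → Finset (Fin t → Fin n) :=
    fun pq => Fintype.piFinset (fun _ => C \ Sep pq.1 pq.2) with hBad
  set P₁ : Finset (Fin n × Fin n) := (Z' ×ˢ Z').filter (fun pq => pq.1 ≠ pq.2) with hP₁
  have hBadcard : ∀ pq ∈ P₁, #(Bad pq) * 2 ^ (8 * b + 35) ≤ #C ^ t := by
    intro pq hpq
    simp only [hP₁, mem_filter, mem_product] at hpq
    have hcard : #(Bad pq) = #(C \ Sep pq.1 pq.2) ^ t := by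
      simp [hBad, Fintype.card_piFinset]
    rw [hcard]
    have hsubs : Sep pq.1 pq.2 ⊆ C := filter_subset _ _
    refine pow_sep_bound _ (#(Sep pq.1 pq.2)) _ b ?_ (hSepcard _ hpq.1.1 _ hpq.1.2 hpq.2)
    exact card_sdiff_add_card_eq_card hsubs
  have hUnion : #(P₁.biUnion Bad) * 2 ^ (8 * b + 35) ≤ #P₁ * #C ^ t := by
    calc #(P₁.biUnion Bad) * 2 ^ (8 * b + 35) ≤ (∑ pq ∈ P₁, #(Bad pq)) * 2 ^ (8 * b + 35) :=
          Nat.mul_le_mul_right _ card_biUnion_le
      _ = ∑ pq ∈ P₁, #(Bad pq) * 2 ^ (8 * b + 35) := by rw [sum_mul]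
      _ ≤ ∑ _pq ∈ P₁, #C ^ t := sum_le_sum hBadcard
      _ = #P₁ * #C ^ t := by simp
  have hP₁card : #P₁ ≤ 2 ^ (8 * b + 34) := by
    calc #P₁ ≤ #(Z' ×ˢ Z') := card_le_card (filter_subset _ _)
      _ = packM b * packM b := by rw [card_product, hZ'card]
      _ = 2 ^ (8 * b + 34) := by unfold packM; rw [← pow_add]; congr 1; ring
  have hCtpos : 0 < #C ^ t := pow_pos hCpos _
  have hlt : #(P₁.biUnion Bad) < #G := by
    rw [hGcard]
    have h1 : #(P₁.biUnion Bad) * 2 ^ (8 * b + 35) ≤ 2 ^ (8 * b + 34) * #C ^ t :=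
      le_trans hUnion (Nat.mul_le_mul_right _ hP₁card)
    have h2 : (2 : ℕ) ^ (8 * b + 35) = 2 ^ (8 * b + 34) * 2 := by ring
    rw [h2] at h1
    have h3 : 0 < (2 : ℕ) ^ (8 * b + 34) := by positivity
    have h4 : #(P₁.biUnion Bad) * 2 ≤ #C ^ t := by
      have : 2 ^ (8 * b + 34) * (#(P₁.biUnion Bad) * 2) ≤ 2 ^ (8 * b + 34) * #C ^ t := by
        calc _ = #(P₁.biUnion Bad) * (2 ^ (8 * b + 34) * 2) := by ring
          _ ≤ _ := h1
      exact Nat.le_of_mul_le_mul_left this h3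
    omega
  obtain ⟨T, hTG, hTbad⟩ : ∃ T ∈ G, T ∉ P₁.biUnion Bad := by
    by_contra hcon
    push Not at hcon
    have := card_le_card (fun x hx => hcon x hx : G ⊆ P₁.biUnion Bad)
    omega
  have hTC : ∀ i, T i ∈ C := by
    intro i
    rw [hG, Fintype.mem_piFinset] at hTG
    exact hTG i
  refine ⟨T, hTC, ?_⟩
  intro p hp q hq hpq
  by_contra hcon
  push Not at hcon
  apply hTbad
  rw [mem_biUnion]
  refine ⟨(p, q), ?_, ?_⟩
  · simp only [hP₁, mem_filter, mem_product]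
    exact ⟨⟨hp, hq⟩, hpq⟩
  · simp only [hBad, Fintype.mem_piFinset, mem_sdiff, hSep, mem_filter, not_and, not_not]
    exact fun i => ⟨hTC i, fun _ => hcon i⟩

/-- Sauer-Shelah step: too many rows, separated by few columns on which no copy occurs, are
impossible. -/
lemma no_traces {H : Fin 2 → Fin 2 → Bool} (hH : HasPair H) (A : Fin n → Fin n → Bool)
    (Z' Ts : Finset (Fin n)) (t : ℕ) (hTscard : #Ts ≤ t) (hZ' : 1 + t + t ^ 2 < #Z')
    (hsep : ∀ p ∈ Z', ∀ q ∈ Z', p ≠ q → ∃ c ∈ Ts, A p c ≠ A q c)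
    (hfree : ∀ p ∈ Z', ∀ q ∈ Z', p < q → ∀ c₁ ∈ Ts, ∀ c₂ ∈ Ts, c₁ < c₂ → ¬ Pat H (A p) (A q) c₁ c₂) :
    False := by
  classical
  obtain ⟨a, b', hab, ⟨i₁, j₁, hij₁, h1a, h1b, h1c, h1d⟩, ⟨i₂, j₂, hij₂, h2a, h2b, h2c, h2d⟩⟩ := hH
  set tr : Fin n → Finset (Fin n) := fun r => {c ∈ Ts | A r c = true} with htr
  have htrinj : Set.InjOn tr (Z' : Set (Fin n)) := by
    intro p hp q hq hpq
    by_contra hne
    obtain ⟨c, hmem, hi⟩ := hsep p hp q hq hne
    have h1 : c ∈ tr p ↔ c ∈ tr q := by rw [hpq]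
    simp only [htr, mem_filter, hmem, true_and] at h1
    apply hi
    cases hAp : A p c <;> cases hAq : A q c <;> simp_all
  set 𝒜 : Finset (Finset (Fin n)) := Z'.image tr with h𝒜
  have h𝒜card : #𝒜 = #Z' := by
    rw [h𝒜, card_image_of_injOn htrinj]
  have hshat : 𝒜.shatterer ⊆ {S ∈ Ts.powerset | #S ≤ 2} := by
    intro S hS
    rw [mem_shatterer] at hS
    have hSTs : S ⊆ Ts := by
      obtain ⟨u, hu, hSu⟩ := hS.exists_superset
      rw [h𝒜, mem_image] at hu
      obtain ⟨r, _, rfl⟩ := hu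
      exact hSu.trans (filter_subset _ _)
    simp only [mem_filter, mem_powerset]
    refine ⟨hSTs, ?_⟩
    by_contra hS3
    have hS3' : 3 ≤ #S := by omega
    set e := S.orderEmbOfCardLe hS3' with he
    have hemem : ∀ i, e i ∈ S := fun i => orderEmbOfCardLe_mem S hS3' i
    -- realise a trace of the three columns
    have hreal : ∀ w : Fin 3 → Bool, ∃ r ∈ Z', ∀ i, A r (e i) = w i := by
      intro w
      have hsubw : (univ.filter (fun i => w i = true)).image e ⊆ S := by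
        intro c hc
        rw [mem_image] at hc
        obtain ⟨i, _, rfl⟩ := hc
        exact hemem i
      obtain ⟨u, hu, huS⟩ := hS hsubw
      rw [h𝒜, mem_image] at hu
      obtain ⟨r, hr, rfl⟩ := hu
      refine ⟨r, hr, fun i => ?_⟩
      have h1 : e i ∈ S ∩ tr r ↔ e i ∈ (univ.filter (fun i => w i = true)).image e := by rw [huS]
      have h2 : e i ∈ (univ.filter (fun i => w i = true)).image e ↔ w i = true := by
        rw [mem_image]
        constructor
        · rintro ⟨j, hj, hje⟩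
          have := e.injective hje
          subst this
          simpa using hj
        · intro hw
          exact ⟨i, by simpa using hw, rfl⟩
      have h3 : e i ∈ S ∩ tr r ↔ A r (e i) = true := by
        simp only [mem_inter, htr, mem_filter]
        constructor
        · rintro ⟨_, _, h⟩; exact h
        · intro h; exact ⟨hemem i, hSTs (hemem i), h⟩
      have h4 : A r (e i) = true ↔ w i = true := by rw [← h3, h1, h2]
      cases hA : A r (e i) <;> cases hW : w i <;> simp_all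
    obtain ⟨p, hp, hpa⟩ := hreal a
    obtain ⟨q, hq, hqb⟩ := hreal b'
    have hpq : p ≠ q := by
      rintro rfl
      apply hab
      funext i
      rw [← hpa i, hqb i]
    rcases lt_or_gt_of_ne hpq with hlt | hlt
    · refine hfree p hp q hq hlt (e i₁) (hSTs (hemem _)) (e j₁) (hSTs (hemem _))
        (e.strictMono hij₁) ?_
      exact ⟨by rw [hpa, h1a], by rw [hpa, h1b], by rw [hqb, h1c], by rw [hqb, h1d]⟩
    · refine hfree q hq p hp hlt (e i₂) (hSTs (hemem _)) (e j₂) (hSTs (hemem _))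
        (e.strictMono hij₂) ?_
      exact ⟨by rw [hqb, h2a], by rw [hqb, h2b], by rw [hpa, h2c], by rw [hpa, h2d]⟩
  have hfinal : #Z' ≤ 1 + #Ts + #Ts ^ 2 := by
    rw [← h𝒜card]
    exact le_trans (card_le_card_shatterer 𝒜)
      (le_trans (card_le_card hshat) (card_small_subsets Ts))
  have h1 : #Ts ^ 2 ≤ t ^ 2 := Nat.pow_le_pow_left hTscard 2
  omega

lemma packM_gt (b : ℕ) : 1 + 2 ^ (2 * b + 8) + (2 ^ (2 * b + 8)) ^ 2 < packM b := by
  set t : ℕ := 2 ^ (2 * b + 8) with ht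
  have htpos : 256 ≤ t := by
    rw [ht]
    calc 256 = 2 ^ 8 := by norm_num
      _ ≤ 2 ^ (2 * b + 8) := Nat.pow_le_pow_right (by norm_num) (by omega)
  have hM : packM b = 2 * t ^ 2 := by
    unfold packM
    rw [ht, ← pow_mul]
    have : 4 * b + 17 = (2 * b + 8) * 2 + 1 := by ring
    rw [this, pow_succ]; ring
  rw [hM]
  nlinarith

/-- **Packing lemma.** -/
theorem packing {H : Fin 2 → Fin 2 → Bool} (hH : HasPair H) (A : Fin n → Fin n → Bool)
    (Z : Finset (Fin n)) (b h : ℕ) (hn : 0 < n)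
    (hfar : ∀ p ∈ Z, ∀ q ∈ Z, p ≠ q → n ≤ 2 ^ b * ham (A p) (A q))
    (hcop : ∀ p ∈ Z, ∀ q ∈ Z, p < q → cop H (A p) (A q) ≤ h ^ 2)
    (hsize : packM b ^ 2 * (2 * h + 1) * 2 ^ (b + 1) ≤ n) :
    #Z < packM b := by
  classical
  by_contra hge
  push Not at hge
  obtain ⟨Z', hZ'sub, hZ'card⟩ := exists_subset_card_eq hge
  -- column deletion
  have hDel : ∀ p q : Fin n, ∃ D : Finset (Fin n), cop H (A p) (A q) ≤ h ^ 2 →
      #D ≤ 2 * h + 1 ∧ ∀ c₁ c₂, c₁ ∉ D → c₂ ∉ D → c₁ < c₂ → ¬ Pat H (A p) (A q) c₁ c₂ := by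
    intro p q
    by_cases hc : cop H (A p) (A q) ≤ h ^ 2
    · obtain ⟨D, hD1, hD2⟩ := exists_deletion H (A p) (A q) h hc
      exact ⟨D, fun _ => ⟨hD1, hD2⟩⟩
    · exact ⟨∅, fun h' => absurd h' hc⟩
  choose Del hDelspec using hDel
  set P₀ : Finset (Fin n × Fin n) := Z' ×ˢ Z' with hP₀
  have hP₀card : #P₀ = packM b ^ 2 := by
    rw [hP₀, card_product, hZ'card]; ring
  set D : Finset (Fin n) := P₀.biUnion (fun pq => if pq.1 < pq.2 then Del pq.1 pq.2 else ∅) with hD
  have hDcard : #D ≤ packM b ^ 2 * (2 * h + 1) := by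
    rw [← hP₀card]
    apply card_biUnion_le_card_mul
    intro pq hpq
    rw [hP₀, mem_product] at hpq
    split_ifs with hlt
    · exact (hDelspec _ _ (hcop _ (hZ'sub hpq.1) _ (hZ'sub hpq.2) hlt)).1
    · simp
  have hDsmall : 2 ^ (b + 1) * #D ≤ n := by
    refine le_trans ?_ hsize
    calc 2 ^ (b + 1) * #D ≤ 2 ^ (b + 1) * (packM b ^ 2 * (2 * h + 1)) :=
          Nat.mul_le_mul_left _ hDcard
      _ = _ := by ring
  have h2pow : 2 ≤ 2 ^ (b + 1) := by
    calc 2 = 2 ^ 1 := by norm_num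
      _ ≤ 2 ^ (b + 1) := Nat.pow_le_pow_right (by norm_num) (by omega)
  set C : Finset (Fin n) := Dᶜ with hC
  have h2D : 2 * #D ≤ n := le_trans (Nat.mul_le_mul_right _ h2pow) hDsmall
  have hCcard : #C + #D = n := by
    rw [hC, card_compl, Fintype.card_fin]
    omega
  have hCpos : 0 < #C := by
    omega
  have hSepcard : ∀ p ∈ Z', ∀ q ∈ Z', p ≠ q → #C ≤ 2 ^ (b + 1) * #{c ∈ C | A p c ≠ A q c} := by
    intro p hp q hq hpq
    have h1 : ham (A p) (A q) ≤ #{c ∈ C | A p c ≠ A q c} + #D := by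
      unfold ham
      refine le_trans (card_le_card ?_) (card_union_le _ _)
      intro c hc
      simp only [mem_filter, mem_univ, true_and] at hc
      simp only [mem_union, mem_filter, hC, mem_compl]
      by_cases hcD : c ∈ D
      · right; exact hcD
      · left; exact ⟨hcD, hc⟩
    have h2 := hfar p (hZ'sub hp) q (hZ'sub hq) hpq
    have h3 : 2 ^ (b + 1) * ham (A p) (A q) ≤ 2 ^ (b + 1) * (#{c ∈ C | A p c ≠ A q c} + #D) :=
      Nat.mul_le_mul_left _ h1
    have h4 : 2 ^ (b + 1) * ham (A p) (A q) = 2 * (2 ^ b * ham (A p) (A q)) := by ring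
    have h5 : 2 ^ (b + 1) * (#{c ∈ C | A p c ≠ A q c} + #D) =
        2 ^ (b + 1) * #{c ∈ C | A p c ≠ A q c} + 2 ^ (b + 1) * #D := by
      ring
    omega
  obtain ⟨T, hTC, hTsep⟩ := exists_separating_tuple A Z' C b hZ'card hCpos hSepcard
  have hTs : #(univ.image T) ≤ 2 ^ (2 * b + 8) := by
    refine le_trans card_image_le ?_
    simp
  refine no_traces hH A Z' (univ.image T) (2 ^ (2 * b + 8)) hTs ?_ ?_ ?_
  · rw [hZ'card]; exact packM_gt b
  · intro p hp q hq hpq
    obtain ⟨i, hi⟩ := hTsep p hp q hq hpq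
    exact ⟨T i, mem_image_of_mem _ (mem_univ _), hi⟩
  · intro p hp q hq hlt c₁ hc₁ c₂ hc₂ hc
    have hspec := hDelspec p q (hcop _ (hZ'sub hp) _ (hZ'sub hq) hlt)
    have hsubDel : Del p q ⊆ D := by
      intro c hc
      rw [hD, mem_biUnion]
      refine ⟨(p, q), by simp [hP₀, hp, hq], ?_⟩
      simpa [hlt] using hc
    have hnotD : ∀ c ∈ univ.image T, c ∉ Del p q := by
      intro c hc hcD
      rw [mem_image] at hc
      obtain ⟨i, _, rfl⟩ := hc
      have := hTC i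
      rw [hC, mem_compl] at this
      exact this (hsubDel hcD)
    exact hspec.2 c₁ c₂ (hnotD _ hc₁) (hnotD _ hc₂) hc

end Vale.Agent.Lib.P037
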