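import Vale.Agent.Lib.P037.Count
import Vale.Agent.Lib.P037.FillT
import Vale.Agent.Lib.P037.Defs

/-!
# Symmetries of the problem and the final statement
-/

open Finset

namespace Vale.Agent.Lib.P037

open Defs

variable {n : ℕ}

/-- The quantitative removal property of a pattern. -/
def Good (H : Fin 2 → Fin 2 → Bool) : Prop :=
  ∀ (n : ℕ) (A : Fin n → Fin n → Bool) (a : ℕ), 0 < n →
    copies2 H A * 2 ^ (4 * (51 * a + 369)) < n ^ 4 →
    ∃ B : Fin n → Fin n → Bool, (∀ r₁ r₂ c₁ c₂, r₁ < r₂ → c₁ < c₂ → ¬ Pat H (B r₁) (B r₂) c₁ c₂) ∧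
      #{p : Fin n × Fin n | A p.1 p.2 ≠ B p.1 p.2} * 2 ^ a < n ^ 2

/-- A 2x2 pattern by its entries. -/
def mk (a b c d : Bool) : Fin 2 → Fin 2 → Bool := ![![a, b], ![c, d]]

lemma eq_mk (H : Fin 2 → Fin 2 → Bool) : H = mk (H 0 0) (H 0 1) (H 1 0) (H 1 1) := by
  funext i j
  fin_cases i <;> fin_cases j <;> rfl

lemma pat_mk {a b c d : Bool} {u v : Fin n → Bool} {c₁ c₂ : Fin n} :
    Pat (mk a b c d) u v c₁ c₂ ↔ u c₁ = a ∧ u c₂ = b ∧ v c₁ = c ∧ v c₂ = d := by
  simp [Pat, mk]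

lemma patX_eq : patX = mk true false false true := rfl
lemma patT_eq : patT = mk true true true false := rfl

lemma hasPair_patX : HasPair patX :=
  ⟨![true, false, true], ![false, true, false], by decide, ⟨0, 1, by decide, rfl, rfl, rfl, rfl⟩,
    ⟨1, 2, by decide, rfl, rfl, rfl, rfl⟩⟩

lemma hasPair_patT : HasPair patT :=
  ⟨![true, true, false], ![true, false, true], by decide, ⟨0, 1, by decide, rfl, rfl, rfl, rfl⟩,
    ⟨0, 2, by decide, rfl, rfl, rfl, rfl⟩⟩

lemma good_patX : Good (mk true false false true) := fun _ A a hn hfew =>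
  removal_of_few hasPair_patX fill_patX ⟨0, by decide⟩ ⟨0, by decide⟩ A a hn hfew

lemma good_patT : Good (mk true true true false) := fun _ A a hn hfew =>
  removal_of_few hasPair_patT fill_patT ⟨1, by decide⟩ ⟨1, by decide⟩ A a hn hfew

/-- Reversal of the order of rows. -/
lemma good_rowswap {a b c d : Bool} (hG : Good (mk a b c d)) : Good (mk c d a b) := by
  classical
  intro n A e hn hfew
  set A' : Fin n → Fin n → Bool := fun r c => A (Fin.rev r) c with hA'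
  have hle : copies2 (mk a b c d) A' ≤ copies2 (mk c d a b) A := by
    unfold copies2
    apply card_le_card_of_injOn
      (fun x => ((Fin.rev x.1.2, Fin.rev x.1.1), x.2))
    · rintro ⟨⟨r₁, r₂⟩, c₁, c₂⟩ hx
      simp only [coe_filter, mem_univ, true_and, Set.mem_ofPred_eq, pat_mk, hA'] at hx ⊢
      obtain ⟨h1, h2, h3, h4, h5, h6⟩ := hx
      exact ⟨Fin.rev_lt_rev.mpr h1, h2, h5, h6, h3, h4⟩
    · rintro ⟨⟨r₁, r₂⟩, c₁, c₂⟩ _ ⟨⟨r₁', r₂'⟩, c₁', c₂'⟩ _ heq
      simp only [Prod.mk.injEq, Fin.rev_inj] at heq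
      obtain ⟨⟨h1, h2⟩, h3, h4⟩ := heq
      subst h1 h2 h3 h4
      rfl
  obtain ⟨B', hB'free, hB'diff⟩ := hG n A' e hn (lt_of_le_of_lt (Nat.mul_le_mul_right _ hle) hfew)
  refine ⟨fun r c => B' (Fin.rev r) c, ?_, ?_⟩
  · intro r₁ r₂ c₁ c₂ hr hc hpat
    rw [pat_mk] at hpat
    obtain ⟨h1, h2, h3, h4⟩ := hpat
    exact hB'free (Fin.rev r₂) (Fin.rev r₁) c₁ c₂ (Fin.rev_lt_rev.mpr hr) hc
      (pat_mk.mpr ⟨h3, h4, h1, h2⟩)
  · refine lt_of_le_of_lt (Nat.mul_le_mul_right _ ?_) hB'diff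
    apply card_le_card_of_injOn (fun x => (Fin.rev x.1, x.2))
    · rintro ⟨r, c⟩ hx
      simp only [coe_filter, mem_univ, true_and, Set.mem_ofPred_eq, hA', Fin.rev_rev] at hx ⊢
      exact hx
    · rintro ⟨r, c⟩ _ ⟨r', c'⟩ _ heq
      simp only [Prod.mk.injEq, Fin.rev_inj] at heq
      obtain ⟨h1, h2⟩ := heq
      subst h1 h2
      rfl

/-- Reversal of the order of columns. -/
lemma good_colswap {a b c d : Bool} (hG : Good (mk a b c d)) : Good (mk b a d c) := by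
  classical
  intro n A e hn hfew
  set A' : Fin n → Fin n → Bool := fun r c => A r (Fin.rev c) with hA'
  have hle : copies2 (mk a b c d) A' ≤ copies2 (mk b a d c) A := by
    unfold copies2
    apply card_le_card_of_injOn
      (fun x => (x.1, (Fin.rev x.2.2, Fin.rev x.2.1)))
    · rintro ⟨⟨r₁, r₂⟩, c₁, c₂⟩ hx
      simp only [coe_filter, mem_univ, true_and, Set.mem_ofPred_eq, pat_mk, hA'] at hx ⊢
      obtain ⟨h1, h2, h3, h4, h5, h6⟩ := hx
      exact ⟨h1, Fin.rev_lt_rev.mpr h2, h4, h3, h6, h5⟩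
    · rintro ⟨⟨r₁, r₂⟩, c₁, c₂⟩ _ ⟨⟨r₁', r₂'⟩, c₁', c₂'⟩ _ heq
      simp only [Prod.mk.injEq, Fin.rev_inj] at heq
      obtain ⟨⟨h1, h2⟩, h3, h4⟩ := heq
      subst h1 h2 h3 h4
      rfl
  obtain ⟨B', hB'free, hB'diff⟩ := hG n A' e hn (lt_of_le_of_lt (Nat.mul_le_mul_right _ hle) hfew)
  refine ⟨fun r c => B' r (Fin.rev c), ?_, ?_⟩
  · intro r₁ r₂ c₁ c₂ hr hc hpat
    rw [pat_mk] at hpat
    obtain ⟨h1, h2, h3, h4⟩ := hpat
    exact hB'free r₁ r₂ (Fin.rev c₂) (Fin.rev c₁) hr (Fin.rev_lt_rev.mpr hc)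
      (pat_mk.mpr ⟨h2, h1, h4, h3⟩)
  · refine lt_of_le_of_lt (Nat.mul_le_mul_right _ ?_) hB'diff
    apply card_le_card_of_injOn (fun x => (x.1, Fin.rev x.2))
    · rintro ⟨r, c⟩ hx
      simp only [coe_filter, mem_univ, true_and, Set.mem_ofPred_eq, hA', Fin.rev_rev] at hx ⊢
      exact hx
    · rintro ⟨r, c⟩ _ ⟨r', c'⟩ _ heq
      simp only [Prod.mk.injEq, Fin.rev_inj] at heq
      obtain ⟨h1, h2⟩ := heq
      subst h1 h2
      rfl

/-- Complement of all the entries. -/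
lemma good_compl {a b c d : Bool} (hG : Good (mk a b c d)) : Good (mk (!a) (!b) (!c) (!d)) := by
  classical
  intro n A e hn hfew
  set A' : Fin n → Fin n → Bool := fun r c => !(A r c) with hA'
  have hle : copies2 (mk a b c d) A' ≤ copies2 (mk (!a) (!b) (!c) (!d)) A := by
    unfold copies2
    apply card_le_card_of_injOn (fun x => x)
    · rintro ⟨⟨r₁, r₂⟩, c₁, c₂⟩ hx
      simp only [coe_filter, mem_univ, true_and, Set.mem_ofPred_eq, pat_mk, hA'] at hx ⊢
      obtain ⟨h1, h2, h3, h4, h5, h6⟩ := hx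
      exact ⟨h1, h2, by rw [← h3]; simp, by rw [← h4]; simp, by rw [← h5]; simp, by rw [← h6]; simp⟩
    · exact fun _ _ _ _ h => h
  obtain ⟨B', hB'free, hB'diff⟩ := hG n A' e hn (lt_of_le_of_lt (Nat.mul_le_mul_right _ hle) hfew)
  refine ⟨fun r c => !(B' r c), ?_, ?_⟩
  · intro r₁ r₂ c₁ c₂ hr hc hpat
    rw [pat_mk] at hpat
    obtain ⟨h1, h2, h3, h4⟩ := hpat
    exact hB'free r₁ r₂ c₁ c₂ hr hc
      (pat_mk.mpr ⟨Bool.not_inj h1, Bool.not_inj h2, Bool.not_inj h3, Bool.not_inj h4⟩)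
  · refine lt_of_le_of_lt (Nat.mul_le_mul_right _ ?_) hB'diff
    apply card_le_card
    rintro ⟨r, c⟩ hx
    simp only [mem_filter, mem_univ, true_and, hA'] at hx ⊢
    intro h
    apply hx
    rw [← h]
    simp

lemma good_mk (a b c d : Bool) (hr : ¬ (a = c ∧ b = d)) (hc : ¬ (a = b ∧ c = d)) :
    Good (mk a b c d) := by
  have hT : Good (mk true true true false) := good_patT
  have hX : Good (mk true false false true) := good_patX
  have h1 : Good (mk false true true false) := good_rowswap hX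
  have h2 : Good (mk true false true true) := good_rowswap hT
  have h3 : Good (mk true true false true) := good_colswap hT
  have h4 : Good (mk false true true true) := good_rowswap h3
  have hcompl : ∀ {a b c d a' b' c' d' : Bool}, Good (mk a b c d) → a' = !a → b' = !b → c' = !c →
      d' = !d → Good (mk a' b' c' d') := by
    intro a b c d a' b' c' d' hG h1 h2 h3 h4
    subst h1 h2 h3 h4
    exact good_compl hG
  have h5 : Good (mk false false false true) := hcompl hT rfl rfl rfl rfl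
  have h6 : Good (mk false true false false) := hcompl h2 rfl rfl rfl rfl
  have h7 : Good (mk false false true false) := hcompl h3 rfl rfl rfl rfl
  have h8 : Good (mk true false false false) := hcompl h4 rfl rfl rfl rfl
  cases a <;> cases b <;> cases c <;> cases d
  · exact absurd ⟨rfl, rfl⟩ hr
  · exact h5
  · exact h7
  · exact absurd ⟨rfl, rfl⟩ hc
  · exact h6
  · exact absurd ⟨rfl, rfl⟩ hr
  · exact h1
  · exact h4
  · exact h8
  · exact hX
  · exact absurd ⟨rfl, rfl⟩ hr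
  · exact h2
  · exact absurd ⟨rfl, rfl⟩ hc
  · exact h3
  · exact hT
  · exact absurd ⟨rfl, rfl⟩ hr

/-- All patterns with distinct rows and distinct columns are good. -/
theorem good_of_distinct (H : Fin 2 → Fin 2 → Bool) (hrow : H 0 ≠ H 1)
    (hcol : (fun i => H i 0) ≠ (fun i => H i 1)) : Good H := by
  rw [eq_mk H]
  apply good_mk
  · rintro ⟨h, h'⟩
    apply hrow
    funext j
    fin_cases j
    · exact h
    · exact h'
  · rintro ⟨h, h'⟩
    apply hcol
    funext i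
    fin_cases i
    · exact h
    · exact h'

/-- The two definitions of the number of copies of a 2x2 pattern agree. -/
lemma ordCopies_eq (H : Fin 2 → Fin 2 → Bool) (A : Fin n → Fin n → Bool) :
    ordCopies H A = copies2 H A := by
  classical
  unfold ordCopies copies2
  have hsm : ∀ r : Fin 2 → Fin n, StrictMono r ↔ r 0 < r 1 := by
    intro r
    constructor
    · intro h
      exact h (by decide)
    · intro h i j hij
      fin_cases i <;> fin_cases j
      · exact absurd hij (by decide)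
      · exact h
      · exact absurd hij (by decide)
      · exact absurd hij (by decide)
  have hall : ∀ (r c : Fin 2 → Fin n), (∀ i j, A (r i) (c j) = H i j) ↔
      Pat H (A (r 0)) (A (r 1)) (c 0) (c 1) := by
    intro r c
    constructor
    · intro h
      exact ⟨h 0 0, h 0 1, h 1 0, h 1 1⟩
    · rintro ⟨h1, h2, h3, h4⟩ i j
      fin_cases i <;> fin_cases j
      · exact h1
      · exact h2
      · exact h3
      · exact h4
  apply card_bij (fun p _ => ((p.1 0, p.1 1), (p.2 0, p.2 1)))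
  · rintro ⟨r, c⟩ hp
    simp only [mem_filter, mem_univ, true_and] at hp ⊢
    exact ⟨(hsm r).mp hp.1, (hsm c).mp hp.2.1, (hall r c).mp hp.2.2⟩
  · rintro ⟨r, c⟩ _ ⟨r', c'⟩ _ heq
    simp only [Prod.mk.injEq] at heq
    obtain ⟨⟨h1, h2⟩, h3, h4⟩ := heq
    have hr : r = r' := by
      funext i
      fin_cases i
      · exact h1
      · exact h2
    have hc : c = c' := by
      funext i
      fin_cases i
      · exact h3
      · exact h4
    rw [hr, hc]
  · rintro ⟨⟨r₁, r₂⟩, c₁, c₂⟩ hx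
    simp only [mem_filter, mem_univ, true_and] at hx
    refine ⟨(![r₁, r₂], ![c₁, c₂]), ?_, rfl⟩
    simp only [mem_filter, mem_univ, true_and]
    refine ⟨(hsm _).mpr hx.1, (hsm _).mpr hx.2.1, (hall _ _).mpr hx.2.2⟩

/-- The polynomial removal inequality for a good pattern. -/
theorem removal_real {H : Fin 2 → Fin 2 → Bool} (hG : Good H) (n : ℕ) (hn : 1 ≤ n) (ε : ℝ)
    (h0 : 0 < ε) (h1 : ε < 1) (A : Fin n → Fin n → Bool) (hfar : IsFar H A ε) :
    (1 / 2 : ℝ) ^ 1680 * ε ^ 204 * (n : ℝ) ^ 4 ≤ (ordCopies H A : ℝ) := by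
  obtain ⟨a', ha1, ha2⟩ := exists_nat_pow_near_of_lt_one h0 h1.le (by norm_num : (0 : ℝ) < 1 / 2)
    (by norm_num : (1 / 2 : ℝ) < 1)
  by_contra hcon
  push Not at hcon
  rw [ordCopies_eq] at hcon
  have hnpos : (0 : ℝ) < (n : ℝ) := by exact_mod_cast hn
  -- the numeric smallness
  have hsmall : copies2 H A * 2 ^ (4 * (51 * (a' + 1) + 369)) < n ^ 4 := by
    have h2 : (copies2 H A : ℝ) * 2 ^ (4 * (51 * (a' + 1) + 369)) < (n : ℝ) ^ 4 := by
      have h3 : (1 / 2 : ℝ) ^ 1680 * ε ^ 204 ≤ (1 / 2 : ℝ) ^ (4 * (51 * (a' + 1) + 369)) := by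
        have h4 : ε ^ 204 ≤ ((1 / 2 : ℝ) ^ a') ^ 204 := pow_le_pow_left₀ h0.le ha2 204
        have h5 : (1 / 2 : ℝ) ^ 1680 * ((1 / 2 : ℝ) ^ a') ^ 204 =
            (1 / 2 : ℝ) ^ (4 * (51 * (a' + 1) + 369)) := by
          rw [← pow_mul, ← pow_add, show 1680 + a' * 204 = 4 * (51 * (a' + 1) + 369) by omega]
        rw [← h5]
        exact mul_le_mul_of_nonneg_left h4 (by positivity)
      have h6 : (copies2 H A : ℝ) < (1 / 2 : ℝ) ^ (4 * (51 * (a' + 1) + 369)) * (n : ℝ) ^ 4 :=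
        lt_of_lt_of_le hcon (mul_le_mul_of_nonneg_right h3 (by positivity))
      have h7 : (1 / 2 : ℝ) ^ (4 * (51 * (a' + 1) + 369)) * 2 ^ (4 * (51 * (a' + 1) + 369)) = 1 := by
        rw [← mul_pow]; norm_num
      calc (copies2 H A : ℝ) * 2 ^ (4 * (51 * (a' + 1) + 369))
          < ((1 / 2 : ℝ) ^ (4 * (51 * (a' + 1) + 369)) * (n : ℝ) ^ 4) *
              2 ^ (4 * (51 * (a' + 1) + 369)) :=
            mul_lt_mul_of_pos_right h6 (by positivity)
        _ = ((1 / 2 : ℝ) ^ (4 * (51 * (a' + 1) + 369)) * 2 ^ (4 * (51 * (a' + 1) + 369))) *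
              (n : ℝ) ^ 4 := by ring
        _ = (n : ℝ) ^ 4 := by rw [h7, one_mul]
    exact_mod_cast h2
  obtain ⟨B, hBfree, hBdiff⟩ := hG n A (a' + 1) hn hsmall
  have hB0 : ordCopies H B = 0 := by
    rw [ordCopies_eq]
    unfold copies2
    rw [card_eq_zero, filter_eq_empty_iff]
    rintro ⟨⟨r₁, r₂⟩, c₁, c₂⟩ _ ⟨h2, h3, h4⟩
    exact hBfree r₁ r₂ c₁ c₂ h2 h3 h4
  have hfar' := hfar B hB0
  have hdiff : ((entryDiff A B : ℕ) : ℝ) * 2 ^ (a' + 1) < (n : ℝ) ^ 2 := by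
    have : entryDiff A B * 2 ^ (a' + 1) < n ^ 2 := hBdiff
    exact_mod_cast this
  have h8 : (n : ℝ) ^ 2 ≤ (entryDiff A B : ℝ) * 2 ^ (a' + 1) := by
    have h9 : (1 / 2 : ℝ) ^ (a' + 1) * (n : ℝ) ^ 2 ≤ (entryDiff A B : ℝ) :=
      le_trans (mul_le_mul_of_nonneg_right ha1.le (by positivity)) hfar'
    have h10 : (1 / 2 : ℝ) ^ (a' + 1) * 2 ^ (a' + 1) = 1 := by
      rw [← mul_pow]; norm_num
    calc (n : ℝ) ^ 2 = ((1 / 2 : ℝ) ^ (a' + 1) * (n : ℝ) ^ 2) * 2 ^ (a' + 1) := by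
          rw [mul_comm ((1 / 2 : ℝ) ^ (a' + 1)), mul_assoc, h10, mul_one]
      _ ≤ _ := mul_le_mul_of_nonneg_right h9 (by positivity)
  linarith

end Vale.Agent.Lib.P037
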